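import Mathlib

/-!
# The `p`-biased cube: expectation, resampling, characters, Parseval.
-/

open Finset BigOperators

set_option linter.unusedSectionVars false

namespace Vale.Agent.Lib.P063

variable {ι : Type*} [Fintype ι] [DecidableEq ι]

/-- weight of a single coordinate under the `p`-biased measure -/
def w1 (p : ℝ) (b : Bool) : ℝ := if b then p else 1 - p

@[simp] lemma w1_true (p : ℝ) : w1 p true = p := by simp [w1]
@[simp] lemma w1_false (p : ℝ) : w1 p false = 1 - p := by simp [w1]

lemma w1_nonneg {p : ℝ} (h0 : 0 ≤ p) (h1 : p ≤ 1) (b : Bool) : 0 ≤ w1 p b := by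
  cases b <;> simp [w1] <;> linarith

lemma w1_pos {p : ℝ} (h0 : 0 < p) (h1 : p < 1) (b : Bool) : 0 < w1 p b := by
  cases b <;> simp [w1] <;> linarith

/-- weight of a point of the cube -/
def wt (p : ℝ) (x : ι → Bool) : ℝ := ∏ e, w1 p (x e)

lemma wt_nonneg {p : ℝ} (h0 : 0 ≤ p) (h1 : p ≤ 1) (x : ι → Bool) : 0 ≤ wt p x :=
  Finset.prod_nonneg (fun _ _ => w1_nonneg h0 h1 _)

lemma wt_pos {p : ℝ} (h0 : 0 < p) (h1 : p < 1) (x : ι → Bool) : 0 < wt p x :=
  Finset.prod_pos (fun _ _ => w1_pos h0 h1 _)

/-- expectation under the `p`-biased measure -/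
def EE (p : ℝ) (g : (ι → Bool) → ℝ) : ℝ := ∑ x, wt p x * g x

/-- sum over the cube of a product of one-coordinate functions -/
lemma sum_prod_coord (h : ι → Bool → ℝ) :
    ∑ x : ι → Bool, ∏ e, h e (x e) = ∏ e, (h e true + h e false) := by
  have := Finset.prod_univ_sum (fun _ : ι => (univ : Finset Bool)) h
  rw [Fintype.piFinset_univ] at this
  rw [← this]
  refine Finset.prod_congr rfl (fun e _ => ?_)
  simp

lemma wt_sum (p : ℝ) : ∑ x : ι → Bool, wt p x = 1 := by
  unfold wt
  rw [sum_prod_coord (fun _ b => w1 p b)]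
  simp

lemma EE_const (p : ℝ) (c : ℝ) : EE p (fun _ : ι → Bool => c) = c := by
  unfold EE
  rw [← Finset.sum_mul, wt_sum, one_mul]

/-- merge: coordinates in `T` from `y`, the others from `z` -/
def mrg (T : Finset ι) (y z : ι → Bool) : ι → Bool := fun e => if e ∈ T then y e else z e

lemma mrg_apply_mem {T : Finset ι} {e : ι} (h : e ∈ T) (y z : ι → Bool) : mrg T y z e = y e := by
  simp [mrg, h]

lemma mrg_apply_not_mem {T : Finset ι} {e : ι} (h : e ∉ T) (y z : ι → Bool) :
    mrg T y z e = z e := by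
  simp [mrg, h]

lemma wt_mrg_mul (p : ℝ) (T : Finset ι) (y z : ι → Bool) :
    wt p (mrg T y z) * wt p (mrg T z y) = wt p y * wt p z := by
  unfold wt
  rw [← Finset.prod_mul_distrib, ← Finset.prod_mul_distrib]
  refine Finset.prod_congr rfl (fun e _ => ?_)
  by_cases h : e ∈ T
  · simp [mrg, h]
  · simp [mrg, h, mul_comm]

lemma mrg_mrg_left (T : Finset ι) (y z : ι → Bool) : mrg T (mrg T y z) (mrg T z y) = y := by
  ext e; by_cases h : e ∈ T <;> simp [mrg, h]

lemma mrg_mrg_right (T : Finset ι) (y z : ι → Bool) : mrg T (mrg T z y) (mrg T y z) = z := by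
  ext e; by_cases h : e ∈ T <;> simp [mrg, h]

/-- the involution on pairs underlying Fubini -/
def swapPair (T : Finset ι) : ((ι → Bool) × (ι → Bool)) ≃ ((ι → Bool) × (ι → Bool)) where
  toFun q := (mrg T q.1 q.2, mrg T q.2 q.1)
  invFun q := (mrg T q.1 q.2, mrg T q.2 q.1)
  left_inv q := by
    ext e <;> by_cases h : e ∈ T <;> simp [mrg, h]
  right_inv q := by
    ext e <;> by_cases h : e ∈ T <;> simp [mrg, h]

/-- Two-block Fubini for the product measure. -/
lemma fub2 (p : ℝ) (T : Finset ι) (H : (ι → Bool) → (ι → Bool) → ℝ) :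
    ∑ y, ∑ z, wt p y * wt p z * H (mrg T y z) (mrg T z y) = ∑ u, ∑ v, wt p u * wt p v * H u v := by
  rw [← Fintype.sum_prod_type', ← Fintype.sum_prod_type']
  rw [← Equiv.sum_comp (swapPair T)]
  refine Finset.sum_congr rfl (fun q _ => ?_)
  have h1 : (swapPair T q).1 = mrg T q.1 q.2 := rfl
  have h2 : (swapPair T q).2 = mrg T q.2 q.1 := rfl
  rw [h1, h2, wt_mrg_mul, mrg_mrg_left, mrg_mrg_right]

lemma fub (p : ℝ) (T : Finset ι) (H : (ι → Bool) → ℝ) :
    ∑ y, ∑ z, wt p y * wt p z * H (mrg T y z) = EE p H := by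
  have := fub2 p T (fun u _ => H u)
  rw [this]
  unfold EE
  refine Finset.sum_congr rfl (fun u _ => ?_)
  rw [show (∑ v, wt p u * wt p v * H u) = (wt p u * H u) * ∑ v, wt p v by
    rw [Finset.mul_sum]; refine Finset.sum_congr rfl (fun v _ => ?_); ring]
  rw [wt_sum, mul_one]

/-- Resampling the coordinates of `B`. -/
def res (p : ℝ) (B : Finset ι) (g : (ι → Bool) → ℝ) (x : ι → Bool) : ℝ :=
  ∑ y, wt p y * g (mrg B y x)

lemma EE_res (p : ℝ) (B : Finset ι) (g : (ι → Bool) → ℝ) : EE p (res p B g) = EE p g := by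
  rw [← fub p B g]
  unfold EE res
  rw [Finset.sum_comm]
  simp_rw [Finset.mul_sum]
  refine Finset.sum_congr rfl (fun y _ => Finset.sum_congr rfl (fun z _ => ?_))
  ring

lemma res_def (p : ℝ) (B : Finset ι) (g : (ι → Bool) → ℝ) (x : ι → Bool) :
    res p B g x = ∑ y, wt p y * g (mrg B y x) := rfl

lemma res_empty (p : ℝ) (g : (ι → Bool) → ℝ) : res p ∅ g = g := by
  ext x
  have h : ∀ y, mrg (∅ : Finset ι) y x = x := fun y => by ext e; simp [mrg]
  simp only [res, h]
  rw [← Finset.sum_mul, wt_sum, one_mul]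

lemma res_univ (p : ℝ) (g : (ι → Bool) → ℝ) (x : ι → Bool) : res p univ g x = EE p g := by
  have h : ∀ y, mrg (univ : Finset ι) y x = y := fun y => by ext e; simp [mrg]
  simp only [res, h, EE]

lemma res_const (p : ℝ) (B : Finset ι) (c : ℝ) (x : ι → Bool) :
    res p B (fun _ => c) x = c := by
  simp only [res]
  rw [← Finset.sum_mul, wt_sum, one_mul]

lemma res_add (p : ℝ) (B : Finset ι) (g h : (ι → Bool) → ℝ) :
    res p B (fun x => g x + h x) = fun x => res p B g x + res p B h x := by
  ext x
  simp only [res, mul_add, Finset.sum_add_distrib]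

lemma res_sub (p : ℝ) (B : Finset ι) (g h : (ι → Bool) → ℝ) :
    res p B (fun x => g x - h x) = fun x => res p B g x - res p B h x := by
  ext x
  simp only [res, mul_sub, Finset.sum_sub_distrib]

lemma res_const_mul (p : ℝ) (B : Finset ι) (c : ℝ) (g : (ι → Bool) → ℝ) :
    res p B (fun x => c * g x) = fun x => c * res p B g x := by
  ext x
  simp only [res, Finset.mul_sum]
  refine Finset.sum_congr rfl (fun y _ => ?_)
  ring

lemma res_sum {α : Type*} (p : ℝ) (B : Finset ι) (s : Finset α) (g : α → (ι → Bool) → ℝ)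
    (x : ι → Bool) :
    res p B (fun z => ∑ a ∈ s, g a z) x = ∑ a ∈ s, res p B (g a) x := by
  simp only [res, Finset.mul_sum]
  rw [Finset.sum_comm]

lemma res_mono {p : ℝ} (h0 : 0 ≤ p) (h1 : p ≤ 1) (B : Finset ι) {g h : (ι → Bool) → ℝ}
    (hgh : ∀ x, g x ≤ h x) (x : ι → Bool) : res p B g x ≤ res p B h x :=
  Finset.sum_le_sum (fun y _ => mul_le_mul_of_nonneg_left (hgh _) (wt_nonneg h0 h1 y))

lemma EE_mono {p : ℝ} (h0 : 0 ≤ p) (h1 : p ≤ 1) {g h : (ι → Bool) → ℝ}
    (hgh : ∀ x, g x ≤ h x) : EE p g ≤ EE p h :=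
  Finset.sum_le_sum (fun y _ => mul_le_mul_of_nonneg_left (hgh _) (wt_nonneg h0 h1 y))

lemma EE_nonneg {p : ℝ} (h0 : 0 ≤ p) (h1 : p ≤ 1) {g : (ι → Bool) → ℝ}
    (hg : ∀ x, 0 ≤ g x) : 0 ≤ EE p g :=
  Finset.sum_nonneg (fun y _ => mul_nonneg (wt_nonneg h0 h1 y) (hg _))

lemma res_nonneg {p : ℝ} (h0 : 0 ≤ p) (h1 : p ≤ 1) (B : Finset ι) {g : (ι → Bool) → ℝ}
    (hg : ∀ x, 0 ≤ g x) (x : ι → Bool) : 0 ≤ res p B g x :=
  Finset.sum_nonneg (fun y _ => mul_nonneg (wt_nonneg h0 h1 y) (hg _))

lemma EE_add (p : ℝ) (g h : (ι → Bool) → ℝ) :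
    EE p (fun x => g x + h x) = EE p g + EE p h := by
  simp only [EE, mul_add, Finset.sum_add_distrib]

lemma EE_sub (p : ℝ) (g h : (ι → Bool) → ℝ) :
    EE p (fun x => g x - h x) = EE p g - EE p h := by
  simp only [EE, mul_sub, Finset.sum_sub_distrib]

lemma EE_const_mul (p : ℝ) (c : ℝ) (g : (ι → Bool) → ℝ) :
    EE p (fun x => c * g x) = c * EE p g := by
  simp only [EE, Finset.mul_sum]
  refine Finset.sum_congr rfl (fun y _ => ?_)
  ring

lemma EE_sum {α : Type*} (p : ℝ) (s : Finset α) (g : α → (ι → Bool) → ℝ) :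
    EE p (fun z => ∑ a ∈ s, g a z) = ∑ a ∈ s, EE p (g a) := by
  simp only [EE, Finset.mul_sum]
  rw [Finset.sum_comm]

/-- `res B g` does not depend on the coordinates of `B`. -/
lemma mrg_congr {B : Finset ι} {x x' : ι → Bool} (h : ∀ e, e ∉ B → x e = x' e) (y : ι → Bool) :
    mrg B y x = mrg B y x' := by
  ext e
  by_cases he : e ∈ B
  · simp [mrg, he]
  · simp [mrg, he, h e he]

lemma res_congr (p : ℝ) (B : Finset ι) (g : (ι → Bool) → ℝ) {x x' : ι → Bool}
    (h : ∀ e, e ∉ B → x e = x' e) : res p B g x = res p B g x' := by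
  simp only [res, mrg_congr h]

/-- A function depends only on coordinates outside of `B`. -/
def IndepOf (B : Finset ι) (g : (ι → Bool) → ℝ) : Prop :=
  ∀ x x', (∀ e, e ∉ B → x e = x' e) → g x = g x'

lemma indepOf_res (p : ℝ) (B : Finset ι) (g : (ι → Bool) → ℝ) : IndepOf B (res p B g) :=
  fun _ _ h => res_congr p B g h

lemma res_eq_self {p : ℝ} {B : Finset ι} {g : (ι → Bool) → ℝ} (hg : IndepOf B g) :
    res p B g = g := by
  ext x
  have h : ∀ y, g (mrg B y x) = g x := fun y =>
    hg _ _ (fun e he => by simp [mrg, he])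
  simp only [res, h]
  rw [← Finset.sum_mul, wt_sum, one_mul]

/-- composition of resamplings -/
lemma res_res (p : ℝ) (B C : Finset ι) (g : (ι → Bool) → ℝ) :
    res p B (res p C g) = res p (B ∪ C) g := by
  ext x
  have key : ∀ y z, mrg C z (mrg B y x) = mrg (B ∪ C) (mrg C z y) x := by
    intro y z
    ext e
    by_cases h1 : e ∈ C <;> by_cases h2 : e ∈ B <;> simp [mrg, h1, h2]
  simp only [res, Finset.mul_sum, key]
  have := fub p C (fun u => g (mrg (B ∪ C) u x))
  rw [EE] at this
  rw [← this, Finset.sum_comm]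
  refine Finset.sum_congr rfl (fun z _ => Finset.sum_congr rfl (fun y _ => ?_))
  ring

/-- self-adjointness of resampling -/
lemma EE_res_mul (p : ℝ) (B : Finset ι) (g h : (ι → Bool) → ℝ) :
    EE p (fun x => res p B g x * h x) = EE p (fun x => g x * res p B h x) := by
  have h2 := fub2 p B (fun u v => g u * h (mrg B v u))
  simp only [EE, res, Finset.sum_mul, Finset.mul_sum]
  have key : ∀ y z, mrg B (mrg B z y) (mrg B y z) = z := fun y z => mrg_mrg_right B y z
  simp only [key] at h2
  rw [Finset.sum_comm]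
  calc _ = ∑ y, ∑ z, wt p y * wt p z * (g (mrg B y z) * h z) := by
        refine Finset.sum_congr rfl (fun y _ => Finset.sum_congr rfl (fun z _ => ?_)); ring
    _ = _ := by
        rw [h2]
        refine Finset.sum_congr rfl (fun y _ => Finset.sum_congr rfl (fun z _ => ?_)); ring

/-- centred coordinate -/
def zc (p : ℝ) (b : Bool) : ℝ := (if b then (1:ℝ) else 0) - p

/-- normalised centred coordinate -/
noncomputable def c1 (p : ℝ) (b : Bool) : ℝ := zc p b / Real.sqrt (p * (1 - p))

/-- biased character -/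
noncomputable def chi (p : ℝ) (S : Finset ι) (x : ι → Bool) : ℝ := ∏ e ∈ S, c1 p (x e)

/-- Fourier coefficient -/
noncomputable def coeff (p : ℝ) (g : (ι → Bool) → ℝ) (S : Finset ι) : ℝ :=
  EE p (fun x => g x * chi p S x)

section sqrtfacts
variable {p : ℝ} (h0 : 0 < p) (h1 : p < 1)
include h0 h1

lemma pq_pos : 0 < p * (1 - p) := mul_pos h0 (by linarith)

lemma sq_pos' : 0 < Real.sqrt (p * (1 - p)) := Real.sqrt_pos.mpr (pq_pos h0 h1)

lemma c1_mean : p * c1 p true + (1 - p) * c1 p false = 0 := by
  have hs := (sq_pos' h0 h1).ne'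
  simp only [c1, zc]
  field_simp
  simp
  ring

lemma c1_kernel (a b : Bool) :
    1 + c1 p a * c1 p b = if a = b then 1 / w1 p a else 0 := by
  have hs := (sq_pos' h0 h1).ne'
  have hq : (1 - p) ≠ 0 := by linarith
  have hp : p ≠ 0 := h0.ne'
  have hsq : Real.sqrt (p * (1 - p)) * Real.sqrt (p * (1 - p)) = p * (1 - p) :=
    Real.mul_self_sqrt (pq_pos h0 h1).le
  have : c1 p a * c1 p b = zc p a * zc p b / (p * (1 - p)) := by
    simp only [c1]
    rw [div_mul_div_comm, hsq]
  rw [this]
  cases a <;> cases b <;> simp [zc, w1] <;> field_simp <;> ring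

end sqrtfacts

lemma chi_empty (p : ℝ) (x : ι → Bool) : chi p (∅ : Finset ι) x = 1 := by
  simp [chi]

/-- The reproducing kernel. -/
lemma sum_chi_mul_chi {p : ℝ} (h0 : 0 < p) (h1 : p < 1) (x y : ι → Bool) :
    ∑ S : Finset ι, chi p S x * chi p S y = if x = y then 1 / wt p x else 0 := by
  have h2 : ∑ S : Finset ι, chi p S x * chi p S y = ∏ e, (1 + c1 p (x e) * c1 p (y e)) := by
    rw [Finset.prod_one_add, Finset.powerset_univ]
    refine Finset.sum_congr rfl (fun S _ => ?_)
    simp only [chi, Finset.prod_mul_distrib]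
  rw [h2]
  simp_rw [c1_kernel h0 h1]
  by_cases hxy : x = y
  · subst hxy
    simp [wt, Finset.prod_inv_distrib]
  · have : ∃ e, x e ≠ y e := by
      by_contra hc
      push Not at hc
      exact hxy (funext hc)
    obtain ⟨e, he⟩ := this
    rw [if_neg hxy]
    exact Finset.prod_eq_zero (Finset.mem_univ e) (by simp [he])

/-- Fourier expansion. -/
lemma expansion {p : ℝ} (h0 : 0 < p) (h1 : p < 1) (g : (ι → Bool) → ℝ) (x : ι → Bool) :
    ∑ S : Finset ι, coeff p g S * chi p S x = g x := by
  simp only [coeff, EE, Finset.sum_mul]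
  rw [Finset.sum_comm]
  have : ∀ y, ∑ S : Finset ι, wt p y * (g y * chi p S y) * chi p S x
      = wt p y * g y * (if y = x then 1 / wt p y else 0) := by
    intro y
    rw [← sum_chi_mul_chi h0 h1 y x, Finset.mul_sum]
    refine Finset.sum_congr rfl (fun S _ => ?_)
    ring
  simp_rw [this]
  have hw := (wt_pos h0 h1 x).ne'
  simp only [mul_ite, mul_zero, Finset.sum_ite_eq', Finset.mem_univ, if_true]
  field_simp

/-- Parseval in polarised form. -/
lemma parseval_mul {p : ℝ} (h0 : 0 < p) (h1 : p < 1) (g h : (ι → Bool) → ℝ) :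
    EE p (fun x => g x * h x) = ∑ S : Finset ι, coeff p g S * coeff p h S := by
  conv_lhs =>
    enter [2, x]
    rw [← expansion h0 h1 h x, Finset.mul_sum]
  rw [EE_sum]
  refine Finset.sum_congr rfl (fun S _ => ?_)
  have : EE p (fun x => g x * (coeff p h S * chi p S x))
      = coeff p h S * EE p (fun x => g x * chi p S x) := by
    rw [← EE_const_mul]
    congr 1
    ext x
    ring
  rw [this]
  simp only [coeff]
  ring

lemma parseval {p : ℝ} (h0 : 0 < p) (h1 : p < 1) (g : (ι → Bool) → ℝ) :
    EE p (fun x => g x ^ 2) = ∑ S : Finset ι, coeff p g S ^ 2 := by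
  have := parseval_mul h0 h1 g g
  simp only [← pow_two] at this
  exact this

lemma coeff_empty (p : ℝ) (g : (ι → Bool) → ℝ) : coeff p g ∅ = EE p g := by
  simp [coeff, chi_empty]

lemma coeff_sub (p : ℝ) (g h : (ι → Bool) → ℝ) (S : Finset ι) :
    coeff p (fun x => g x - h x) S = coeff p g S - coeff p h S := by
  simp only [coeff, sub_mul]
  rw [EE_sub]

/-- expectation of a product along one coordinate -/
lemma sum_wt_mul_prod (p : ℝ) (h : ι → Bool → ℝ) :
    ∑ y : ι → Bool, wt p y * ∏ e, h e (y e) = ∏ e, (p * h e true + (1 - p) * h e false) := by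
  have := sum_prod_coord (fun e b => w1 p b * h e b)
  simp only [w1_true, w1_false, Finset.prod_mul_distrib] at this
  exact this

lemma marginal (p : ℝ) (e : ι) (φ : Bool → ℝ) :
    ∑ y : ι → Bool, wt p y * φ (y e) = p * φ true + (1 - p) * φ false := by
  have := sum_wt_mul_prod p (fun e' b => if e' = e then φ b else 1)
  simp only [Finset.prod_ite_eq', Finset.mem_univ, if_true] at this
  rw [this]
  rw [Finset.prod_eq_single e]
  · simp
  · intro b _ hb
    simp [hb]
  · simp

/-- resampling a character -/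
lemma res_chi {p : ℝ} (h0 : 0 < p) (h1 : p < 1) (B S : Finset ι) :
    res p B (chi p S) = if Disjoint B S then chi p S else fun _ => 0 := by
  ext x
  by_cases hd : Disjoint B S
  · rw [if_pos hd]
    have : ∀ y, chi p S (mrg B y x) = chi p S x := by
      intro y
      simp only [chi]
      refine Finset.prod_congr rfl (fun e he => ?_)
      have : e ∉ B := fun hb => (Finset.disjoint_left.mp hd hb) he
      simp [mrg, this]
    simp only [res, this]
    rw [← Finset.sum_mul, wt_sum, one_mul]
  · rw [if_neg hd]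
    rw [Finset.not_disjoint_iff] at hd
    obtain ⟨e0, he0B, he0S⟩ := hd
    simp only [res]
    have hprod : ∀ y : ι → Bool, chi p S (mrg B y x)
        = ∏ e, (if e ∈ S then (if e ∈ B then c1 p (y e) else c1 p (x e)) else 1) := by
      intro y
      simp only [chi, mrg]
      rw [Finset.prod_ite_mem, Finset.univ_inter]
      refine Finset.prod_congr rfl (fun e he => ?_)
      by_cases h : e ∈ B <;> simp [h]
    simp only [hprod]
    rw [sum_wt_mul_prod p (fun e b => if e ∈ S then (if e ∈ B then c1 p b else c1 p (x e)) else 1)]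
    refine Finset.prod_eq_zero (Finset.mem_univ e0) ?_
    simp only [he0S, he0B, if_true]
    exact c1_mean h0 h1

/-- Fourier coefficients of a resampling. -/
lemma coeff_res {p : ℝ} (h0 : 0 < p) (h1 : p < 1) (B : Finset ι) (g : (ι → Bool) → ℝ)
    (S : Finset ι) :
    coeff p (res p B g) S = if Disjoint B S then coeff p g S else 0 := by
  unfold coeff
  rw [EE_res_mul, res_chi h0 h1]
  by_cases hd : Disjoint B S
  · simp [hd]
  · simp only [hd, if_false, mul_zero]
    exact EE_const p 0

/-- Discrete derivative along `e`. -/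
def Dd (e : ι) (g : (ι → Bool) → ℝ) (x : ι → Bool) : ℝ :=
  g (Function.update x e true) - g (Function.update x e false)

lemma mrg_singleton (e : ι) (y x : ι → Bool) :
    mrg {e} y x = Function.update x e (y e) := by
  ext e'
  by_cases h : e' = e
  · subst h; simp [mrg]
  · simp [mrg, h]

/-- one-point resampling -/
lemma res_singleton (p : ℝ) (e : ι) (g : (ι → Bool) → ℝ) (x : ι → Bool) :
    res p {e} g x = p * g (Function.update x e true) + (1 - p) * g (Function.update x e false) := by
  simp only [res, mrg_singleton]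
  exact marginal p e (fun b => g (Function.update x e b))

lemma sub_res_singleton (p : ℝ) (e : ι) (g : (ι → Bool) → ℝ) (x : ι → Bool) :
    g x - res p {e} g x = zc p (x e) * Dd e g x := by
  rw [res_singleton]
  simp only [zc, Dd]
  cases hx : x e
  · have : Function.update x e false = x := by
      rw [← hx]; exact Function.update_eq_self e x
    rw [this]; simp; ring
  · have : Function.update x e true = x := by
      rw [← hx]; exact Function.update_eq_self e x
    rw [this]; simp; ring

lemma indepOf_Dd (e : ι) (g : (ι → Bool) → ℝ) : IndepOf {e} (Dd e g) := by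
  intro x x' h
  have h' : ∀ b, Function.update x e b = Function.update x' e b := by
    intro b
    ext e'
    by_cases he : e' = e
    · subst he; simp
    · simp [Function.update_of_ne he, h e' (by simpa using he)]
  simp only [Dd, h']

/-- Integrating a function of coordinate `e` against a function independent of `e`. -/
lemma EE_coord_mul (p : ℝ) (e : ι) (φ : Bool → ℝ) {G : (ι → Bool) → ℝ} (hG : IndepOf {e} G) :
    EE p (fun x => φ (x e) * G x) = (p * φ true + (1 - p) * φ false) * EE p G := by
  rw [← EE_res p {e} (fun x => φ (x e) * G x)]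
  have : res p {e} (fun x => φ (x e) * G x) = fun x => (p * φ true + (1 - p) * φ false) * G x := by
    ext x
    rw [res_singleton]
    have h1 : G (Function.update x e true) = G x :=
      hG _ _ (fun e' he' => by
        have : e' ≠ e := by simpa using he'
        simp [Function.update_of_ne this])
    have h2 : G (Function.update x e false) = G x :=
      hG _ _ (fun e' he' => by
        have : e' ≠ e := by simpa using he'
        simp [Function.update_of_ne this])
    simp only [Function.update_self, h1, h2]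
    ring
  rw [this, EE_const_mul]

/-- `L²` norm of the discrete derivative through the Fourier side -/
lemma pq_Dd_sq {p : ℝ} (h0 : 0 < p) (h1 : p < 1) (e : ι) (g : (ι → Bool) → ℝ) :
    p * (1 - p) * EE p (fun x => Dd e g x ^ 2) = ∑ T : Finset ι, if e ∈ T then coeff p g T ^ 2 else 0 := by
  have h2 : EE p (fun x => (g x - res p {e} g x) ^ 2) = p * (1 - p) * EE p (fun x => Dd e g x ^ 2) := by
    have hind : IndepOf {e} (fun x => Dd e g x ^ 2) := by
      intro x x' h
      simp only [indepOf_Dd e g x x' h]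
    have := EE_coord_mul p e (fun b => zc p b ^ 2) hind
    have h3 : (fun x => (g x - res p {e} g x) ^ 2) = fun x => zc p (x e) ^ 2 * Dd e g x ^ 2 := by
      ext x
      rw [sub_res_singleton]
      ring
    rw [h3, this]
    congr 1
    simp only [zc]
    simp
    ring
  rw [← h2, parseval h0 h1]
  refine Finset.sum_congr rfl (fun T _ => ?_)
  rw [coeff_sub, coeff_res h0 h1]
  by_cases he : e ∈ T
  · simp [he]
  · simp [he]

/-- `L¹` one-point estimate -/
lemma EE_abs_sub_res {p : ℝ} (h0 : 0 < p) (h1 : p < 1) (e : ι) (g : (ι → Bool) → ℝ) :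
    EE p (fun x => |g x - res p {e} g x|) = 2 * (p * (1 - p)) * EE p (fun x => |Dd e g x|) := by
  have hind : IndepOf {e} (fun x => |Dd e g x|) := by
    intro x x' h
    simp only [indepOf_Dd e g x x' h]
  have := EE_coord_mul p e (fun b => |zc p b|) hind
  have h3 : (fun x => |g x - res p {e} g x|) = fun x => |zc p (x e)| * |Dd e g x| := by
    ext x
    rw [sub_res_singleton, abs_mul]
  rw [h3, this]
  congr 1
  have e1 : |(1:ℝ) - p| = 1 - p := abs_of_pos (by linarith)
  have e2 : |(0:ℝ) - p| = p := by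
    rw [zero_sub, abs_neg, abs_of_pos h0]
  simp only [zc, if_true, Bool.false_eq_true, if_false, e1, e2]
  ring

/-- Action of a coordinate permutation on points. -/
def actX (σ : Equiv.Perm ι) (x : ι → Bool) : ι → Bool := fun e => x (σ e)

/-- the action on points as an equivalence -/
def actXEquiv (σ : Equiv.Perm ι) : (ι → Bool) ≃ (ι → Bool) where
  toFun := actX σ
  invFun := actX σ.symm
  left_inv x := by ext e; simp [actX]
  right_inv x := by ext e; simp [actX]

lemma wt_actX (p : ℝ) (σ : Equiv.Perm ι) (x : ι → Bool) : wt p (actX σ x) = wt p x := by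
  unfold wt actX
  exact Equiv.prod_comp σ (fun e => w1 p (x e))

lemma chi_map_actX (p : ℝ) (σ : Equiv.Perm ι) (S : Finset ι) (x : ι → Bool) :
    chi p (S.map σ.toEmbedding) x = chi p S (actX σ x) := by
  simp [chi, actX]

/-- invariance of the Fourier coefficients under an automorphism of `g` -/
lemma coeff_map {p : ℝ} (σ : Equiv.Perm ι) {g : (ι → Bool) → ℝ}
    (hg : ∀ x, g (actX σ x) = g x) (S : Finset ι) :
    coeff p g (S.map σ.toEmbedding) = coeff p g S := by
  unfold coeff EE
  rw [← Equiv.sum_comp (actXEquiv σ) (fun x => wt p x * (g x * chi p S x))]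
  refine Finset.sum_congr rfl (fun x _ => ?_)
  have : actXEquiv σ x = actX σ x := rfl
  rw [this, wt_actX, hg]
  simp only [chi_map_actX]

end Vale.Agent.Lib.P063
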