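import Vale.Agent.Lib.P063.Edges

/-!
# Averaging over relabellings: the maximiser of a random order is uniform.
-/

open Finset BigOperators

set_option linter.unusedSectionVars false

namespace Vale.Agent.Lib.P063

variable {n r : ℕ}

/-- `u` is the maximum of `U` in the order given by `π`. -/
def IsTop (π : Equiv.Perm (Fin n)) (U : Finset (Fin n)) (u : Fin n) : Prop :=
  ∀ u' ∈ U, π u' ≤ π u

open Classical in
/-- number of relabellings for which `u` is on top of `U` -/
noncomputable def Ntop (U : Finset (Fin n)) (u : Fin n) : ℕ :=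
  ((univ : Finset (Equiv.Perm (Fin n))).filter (fun π => IsTop π U u)).card

lemma Ntop_eq {U : Finset (Fin n)} {u1 u2 : Fin n} (h1 : u1 ∈ U) (h2 : u2 ∈ U) :
    Ntop U u1 = Ntop U u2 := by
  classical
  unfold Ntop
  refine Finset.card_bij' (fun π _ => π * Equiv.swap u1 u2) (fun π _ => π * Equiv.swap u1 u2)
    ?_ ?_ ?_ ?_
  · intro π hπ
    simp only [Finset.mem_filter, Finset.mem_univ, true_and] at hπ ⊢
    intro u' hu'
    simp only [Equiv.Perm.mul_apply, Equiv.swap_apply_right]
    apply hπ
    rw [Equiv.swap_apply_def]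
    split_ifs with h3 h4
    · exact h2
    · exact h1
    · exact hu'
  · intro π hπ
    simp only [Finset.mem_filter, Finset.mem_univ, true_and] at hπ ⊢
    intro u' hu'
    simp only [Equiv.Perm.mul_apply, Equiv.swap_apply_left]
    apply hπ
    rw [Equiv.swap_apply_def]
    split_ifs with h3 h4
    · exact h2
    · exact h1
    · exact hu'
  · intro π _
    simp [mul_assoc]
  · intro π _
    simp [mul_assoc]

lemma sum_Ntop {U : Finset (Fin n)} (hU : U.Nonempty) :
    ∑ u ∈ U, Ntop U u = Nat.factorial n := by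
  classical
  have h1 : ∀ π : Equiv.Perm (Fin n), ∑ u ∈ U, (if IsTop π U u then 1 else 0) = 1 := by
    intro π
    obtain ⟨u0, hu0, hmax⟩ := Finset.exists_max_image U (fun u => π u) hU
    rw [Finset.sum_eq_single_of_mem u0 hu0]
    · rw [if_pos]
      exact hmax
    · intro u hu hne
      rw [if_neg]
      intro htop
      have := le_antisymm (hmax u hu) (htop u0 hu0)
      exact hne (π.injective this)
  have h2 : ∑ u ∈ U, Ntop U u = ∑ u ∈ U, ∑ π : Equiv.Perm (Fin n), if IsTop π U u then 1 else 0 := by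
    refine Finset.sum_congr rfl (fun u _ => ?_)
    unfold Ntop
    rw [Finset.card_filter]
  rw [h2, Finset.sum_comm]
  simp only [h1]
  simp [Fintype.card_perm]

/-- averaging formula -/
theorem sum_perm_top (U : Finset (Fin n)) (F : Fin n → ℝ) [∀ π u, Decidable (IsTop π U u)] :
    ∑ π : Equiv.Perm (Fin n), ∑ u ∈ U, (if IsTop π U u then F u else 0)
      = (Nat.factorial n : ℝ) / U.card * ∑ u ∈ U, F u := by
  classical
  rcases U.eq_empty_or_nonempty with rfl | hU
  · simp
  obtain ⟨u0, hu0⟩ := hU
  have hcard : (U.card : ℝ) ≠ 0 := by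
    have : 0 < U.card := Finset.card_pos.mpr ⟨u0, hu0⟩
    exact_mod_cast this.ne'
  have h1 : ∀ u ∈ U, Ntop U u = Ntop U u0 := fun u hu => Ntop_eq hu hu0
  have h2 : (U.card : ℝ) * (Ntop U u0 : ℝ) = Nat.factorial n := by
    have := sum_Ntop (U := U) ⟨u0, hu0⟩
    rw [Finset.sum_congr rfl h1, Finset.sum_const, smul_eq_mul] at this
    exact_mod_cast this
  have h3 : ∀ u ∈ U, ∑ π : Equiv.Perm (Fin n), (if IsTop π U u then F u else 0)
      = (Ntop U u0 : ℝ) * F u := by
    intro u hu
    rw [← h1 u hu]
    unfold Ntop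
    rw [Finset.sum_ite, Finset.sum_const_zero, add_zero, Finset.sum_const, nsmul_eq_mul]
    congr 2
    refine congrArg Finset.card ?_
    ext π
    simp
  rw [Finset.sum_comm, Finset.sum_congr rfl h3, ← Finset.mul_sum, ← h2]
  field_simp

end Vale.Agent.Lib.P063
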