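import Vale.Agent.Lib.P063.Mart

/-!
# Hypergraph edges, vertex filtration and the symmetry bound.
-/

open Finset BigOperators

set_option linter.unusedSectionVars false

namespace Vale.Agent.Lib.P063

variable {n r : ℕ}

/-- The `r`-subsets of `Fin n`. -/
abbrev Edge (n r : ℕ) := {s : Finset (Fin n) // s.card = r}

/-- A vertex permutation acts on edges. -/
def edgePerm (π : Equiv.Perm (Fin n)) : Equiv.Perm (Edge n r) where
  toFun e := ⟨e.1.map π.toEmbedding, by simpa using e.2⟩
  invFun e := ⟨e.1.map π.symm.toEmbedding, by simpa using e.2⟩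
  left_inv e := by
    apply Subtype.ext
    ext v
    simp
  right_inv e := by
    apply Subtype.ext
    ext v
    simp

lemma mem_edgePerm {π : Equiv.Perm (Fin n)} {e : Edge n r} {v : Fin n} :
    v ∈ (edgePerm π e).1 ↔ π.symm v ∈ e.1 := by
  simp [edgePerm, Finset.mem_map_equiv]

lemma mem_edgePerm' {π : Equiv.Perm (Fin n)} {e : Edge n r} {v : Fin n} :
    π v ∈ (edgePerm π e).1 ↔ v ∈ e.1 := by
  simp [mem_edgePerm]

lemma edgePerm_fix {π : Equiv.Perm (Fin n)} {e : Edge n r} (h : ∀ v ∈ e.1, π v = v) :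
    edgePerm π e = e := by
  apply Subtype.ext
  ext v
  rw [mem_edgePerm]
  constructor
  · intro hv
    have := h _ hv
    simp only [Equiv.apply_symm_apply] at this
    rw [this]
    exact hv
  · intro hv
    have : π.symm v = v := by
      rw [Equiv.symm_apply_eq]
      exact (h v hv).symm
    rw [this]
    exact hv

/-- edges inside `{v < k}` -/
def Wk (n r k : ℕ) : Finset (Edge n r) := univ.filter (fun e => ∀ v ∈ e.1, v.val < k)

/-- edges new at step `k` -/
def Bk (n r k : ℕ) : Finset (Edge n r) := Wk n r (k + 1) \ Wk n r k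

lemma mem_Wk {k : ℕ} {e : Edge n r} : e ∈ Wk n r k ↔ ∀ v ∈ e.1, v.val < k := by
  simp [Wk]

lemma Wk_mono {k l : ℕ} (h : k ≤ l) : Wk n r k ⊆ Wk n r l := by
  intro e he
  rw [mem_Wk] at he ⊢
  exact fun v hv => (he v hv).trans_le h

lemma mem_Bk {k : ℕ} {e : Edge n r} :
    e ∈ Bk n r k ↔ (∀ v ∈ e.1, v.val ≤ k) ∧ ∃ v ∈ e.1, v.val = k := by
  simp only [Bk, Finset.mem_sdiff, mem_Wk]
  constructor
  · rintro ⟨h1, h2⟩
    push Not at h2
    obtain ⟨v, hv, hv2⟩ := h2
    exact ⟨fun u hu => Nat.lt_succ_iff.mp (h1 u hu), v, hv, by have := h1 v hv; omega⟩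
  · rintro ⟨h1, v, hv, hv2⟩
    refine ⟨fun u hu => Nat.lt_succ_iff.mpr (h1 u hu), ?_⟩
    intro h
    have := h v hv
    omega

lemma compl_Wk_eq (n r k : ℕ) : (Wk n r k)ᶜ = (Wk n r (k + 1))ᶜ ∪ Bk n r k := by
  ext e
  have : e ∈ Wk n r k → e ∈ Wk n r (k + 1) := fun h => Wk_mono (Nat.le_succ k) h
  simp only [Finset.mem_compl, Finset.mem_union, Bk, Finset.mem_sdiff]
  tauto

lemma disjoint_compl_Bk (n r k : ℕ) : Disjoint (Wk n r (k + 1))ᶜ (Bk n r k) := by
  rw [Finset.disjoint_left]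
  intro e h1 h2
  simp only [Bk, Finset.mem_sdiff, Finset.mem_compl] at h1 h2
  exact h1 h2.1

/-- The martingale increment at step `k`. -/
def dk (p : ℝ) (f : (Edge n r → Bool) → ℝ) (k : ℕ) (z : Edge n r → Bool) : ℝ :=
  res p (Wk n r (k + 1))ᶜ f z - res p (Wk n r k)ᶜ f z

/-- indicator that `T` lies inside `{v < k}` -/
def ind (k : ℕ) (T : Finset (Edge n r)) : ℝ := if T ⊆ Wk n r k then 1 else 0

lemma disjoint_compl_iff {α : Type*} [Fintype α] [DecidableEq α] (A T : Finset α) :
    Disjoint Aᶜ T ↔ T ⊆ A := by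
  rw [Finset.disjoint_left]
  constructor
  · intro h e he
    by_contra hc
    exact h (Finset.mem_compl.mpr hc) he
  · intro h e h1 h2
    exact (Finset.mem_compl.mp h1) (h h2)

lemma coeff_dk {p : ℝ} (h0 : 0 < p) (h1 : p < 1) (f : (Edge n r → Bool) → ℝ) (k : ℕ)
    (T : Finset (Edge n r)) :
    coeff p (dk p f k) T = (ind (k + 1) T - ind k T) * coeff p f T := by
  have : dk p f k = fun z => res p (Wk n r (k + 1))ᶜ f z - res p (Wk n r k)ᶜ f z := rfl
  rw [this, coeff_sub, coeff_res h0 h1, coeff_res h0 h1]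
  simp only [disjoint_compl_iff, ind]
  by_cases h2 : T ⊆ Wk n r (k + 1) <;> by_cases h3 : T ⊆ Wk n r k <;> simp [h2, h3]

lemma ind_sub_sq (k : ℕ) (T : Finset (Edge n r)) :
    (ind (k + 1) T - ind k T) ^ 2 = ind (k + 1) T - ind k T := by
  simp only [ind]
  by_cases h2 : T ⊆ Wk n r (k + 1) <;> by_cases h3 : T ⊆ Wk n r k
  · simp [h2, h3]
  · simp [h2, h3]
  · exact absurd (h3.trans (Wk_mono (Nat.le_succ k))) h2
  · simp [h2, h3]

section Sym

variable {p : ℝ} (h0 : 0 < p) (h1 : p < 1) (f : (Edge n r → Bool) → ℝ)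

/-- `f` with the coordinates of `Wk k` frozen to `x`. -/
def frz (k : ℕ) (f : (Edge n r → Bool) → ℝ) (x : Edge n r → Bool) (z : Edge n r → Bool) : ℝ :=
  f (mrg (Wk n r k) x z)

lemma dk_mrg (k : ℕ) (x y : Edge n r → Bool) :
    dk p f k (mrg (Bk n r k) y x)
      = res p (Bk n r k)ᶜ (frz k f x) y - res p univ (frz k f x) y := by
  unfold dk
  congr 1
  · simp only [res, frz]
    refine Finset.sum_congr rfl (fun v _ => ?_)
    congr 2
    ext e
    by_cases h2 : e ∈ Wk n r k
    · have h3 : e ∉ Bk n r k := by simp [Bk, h2]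
      have h4 : e ∈ Wk n r (k + 1) := Wk_mono (Nat.le_succ k) h2
      simp [mrg, h2, h3, h4]
    · by_cases h3 : e ∈ Wk n r (k + 1)
      · have h4 : e ∈ Bk n r k := by simp [Bk, h2, h3]
        simp [mrg, h2, h3, h4]
      · have h4 : e ∉ Bk n r k := by simp [Bk, h3]
        simp [mrg, h2, h3, h4]
  · simp only [res, frz]
    refine Finset.sum_congr rfl (fun v _ => ?_)
    congr 2
    ext e
    by_cases h2 : e ∈ Wk n r k
    · have h3 : e ∉ Bk n r k := by simp [Bk, h2]
      simp [mrg, h2, h3]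
    · simp [mrg, h2]

/-- nonempty subsets of a set of edges -/
def nes (A : Finset (Edge n r)) : Finset (Finset (Edge n r)) := A.powerset.erase ∅

lemma mem_nes {A T : Finset (Edge n r)} : T ∈ nes A ↔ T ≠ ∅ ∧ T ⊆ A := by
  simp [nes]

include h0 h1

/-- `A_x` in terms of Fourier coefficients of the frozen function. -/
lemma res_dk_sq_eq (k : ℕ) (x : Edge n r → Bool) :
    res p (Bk n r k) (fun z => dk p f k z ^ 2) x
      = ∑ T ∈ nes (Bk n r k), coeff p (frz k f x) T ^ 2 := by
  have e1 : res p (Bk n r k) (fun z => dk p f k z ^ 2) x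
      = EE p (fun y => (res p (Bk n r k)ᶜ (frz k f x) y - res p univ (frz k f x) y) ^ 2) := by
    simp only [res.eq_1 p (Bk n r k), dk_mrg]
    rfl
  rw [e1, parseval h0 h1]
  have e2 : ∀ S : Finset (Edge n r),
      coeff p (fun y => res p (Bk n r k)ᶜ (frz k f x) y - res p univ (frz k f x) y) S ^ 2
        = if S ∈ nes (Bk n r k) then coeff p (frz k f x) S ^ 2 else 0 := by
    intro S
    rw [coeff_sub, coeff_res h0 h1, coeff_res h0 h1]
    have hdu : Disjoint (univ : Finset (Edge n r)) S ↔ S = ∅ := by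
      rw [Finset.disjoint_left, Finset.eq_empty_iff_forall_notMem]
      exact ⟨fun h e he => h (Finset.mem_univ e) he, fun h e _ he => h e he⟩
    simp only [disjoint_compl_iff, mem_nes, hdu]
    by_cases h2 : S = ∅
    · subst h2
      simp
    · by_cases h3 : S ⊆ Bk n r k
      · simp [h2, h3]
      · simp [h2, h3]
  simp only [e2]
  rw [Finset.sum_ite_mem, Finset.univ_inter]

omit h0 h1 in
lemma frz_nonneg {k : ℕ} {x : Edge n r → Bool} (hf : ∀ x, 0 ≤ f x ∧ f x ≤ 1) (z : Edge n r → Bool) :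
    0 ≤ frz k f x z ∧ frz k f x z ≤ 1 := hf _

omit h0 h1 in
/-- The frozen function is invariant under transpositions of vertices `≥ k`. -/
lemma frz_inv {k : ℕ} (hinv : ∀ (π : Equiv.Perm (Fin n)) x, f (actX (edgePerm π) x) = f x)
    (x : Edge n r → Bool) {j1 j2 : Fin n} (hj1 : k ≤ j1.val) (hj2 : k ≤ j2.val)
    (z : Edge n r → Bool) :
    frz k f x (actX (edgePerm (Equiv.swap j1 j2)) z) = frz k f x z := by
  unfold frz
  rw [← hinv (Equiv.swap j1 j2) (mrg (Wk n r k) x z)]
  congr 1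
  ext e
  set σ : Equiv.Perm (Edge n r) := edgePerm (Equiv.swap j1 j2) with hσ
  have hfix : ∀ e ∈ Wk n r k, σ e = e := by
    intro e he
    rw [mem_Wk] at he
    apply edgePerm_fix
    intro v hv
    apply Equiv.swap_apply_of_ne_of_ne
    · intro h
      have := he v hv
      rw [h] at this
      omega
    · intro h
      have := he v hv
      rw [h] at this
      omega
  by_cases h2 : e ∈ Wk n r k
  · simp [mrg, actX, h2, hfix e h2]
  · have h3 : σ e ∉ Wk n r k := by
      intro h3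
      have := hfix _ h3
      have h4 : σ e = e := σ.injective this
      rw [h4] at h3
      exact h2 h3
    simp [mrg, actX, h2, h3]

/-- The letter of vertex `j`: edges containing `j` whose other vertices are `< k`. -/
def Tj (n r k : ℕ) (j : Fin n) : Finset (Edge n r) :=
  univ.filter (fun e => j ∈ e.1 ∧ ∀ v ∈ e.1, v ≠ j → v.val < k)

omit h0 h1 in
lemma edgePerm_mem_Tj {k : ℕ} {k' j : Fin n} (hk : k'.val = k) (hj : k ≤ j.val) {e : Edge n r}
    (he : e ∈ Bk n r k) : edgePerm (Equiv.swap k' j) e ∈ Tj n r k j := by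
  rw [mem_Bk] at he
  obtain ⟨h2, v, hv, hv2⟩ := he
  have hv3 : v = k' := Fin.ext (by omega)
  subst hv3
  simp only [Tj, Finset.mem_filter, Finset.mem_univ, true_and]
  constructor
  · rw [mem_edgePerm]
    simpa using hv
  · intro u hu huj
    rw [mem_edgePerm] at hu
    simp only [Equiv.symm_swap] at hu
    by_cases huv : u = v
    · subst huv
      rw [Equiv.swap_apply_left] at hu
      have := h2 j hu
      have h4 : j.val = u.val := by omega
      exact absurd (Fin.ext h4).symm huj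
    · rw [Equiv.swap_apply_of_ne_of_ne huv huj] at hu
      have := h2 u hu
      have h4 : u.val ≠ v.val := fun h => huv (Fin.ext h)
      omega

/-- The symmetry bound. -/
lemma sum_nes_le {k : ℕ} {k' j : Fin n} (hk : k'.val = k) (hj : k ≤ j.val)
    (hinv : ∀ (π : Equiv.Perm (Fin n)) x, f (actX (edgePerm π) x) = f x)
    (x : Edge n r → Bool) :
    ∑ T ∈ nes (Bk n r k), coeff p (frz k f x) T ^ 2
      ≤ ∑ T ∈ nes (Tj n r k j), coeff p (frz k f x) T ^ 2 := by
  set σ : Equiv.Perm (Edge n r) := edgePerm (Equiv.swap k' j) with hσ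
  have hc : ∀ T, coeff p (frz k f x) (T.map σ.toEmbedding) = coeff p (frz k f x) T :=
    fun T => coeff_map σ (frz_inv f hinv x (by omega) hj) T
  have hinj : Set.InjOn (fun T : Finset (Edge n r) => T.map σ.toEmbedding)
      (nes (Bk n r k) : Set (Finset (Edge n r))) := by
    intro T1 _ T2 _ h
    exact Finset.map_injective _ h
  calc ∑ T ∈ nes (Bk n r k), coeff p (frz k f x) T ^ 2
      = ∑ T ∈ nes (Bk n r k), coeff p (frz k f x) (T.map σ.toEmbedding) ^ 2 := by
        refine Finset.sum_congr rfl (fun T _ => ?_)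
        rw [hc]
    _ = ∑ T ∈ (nes (Bk n r k)).image (fun T => T.map σ.toEmbedding),
          coeff p (frz k f x) T ^ 2 := by
        rw [Finset.sum_image hinj]
    _ ≤ _ := by
        apply Finset.sum_le_sum_of_subset_of_nonneg
        · intro T' hT'
          rw [Finset.mem_image] at hT'
          obtain ⟨T, hT, rfl⟩ := hT'
          rw [mem_nes] at hT ⊢
          refine ⟨?_, ?_⟩
          · simpa using hT.1
          · intro e he
            rw [Finset.mem_map] at he
            obtain ⟨e0, he0, rfl⟩ := he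
            exact edgePerm_mem_Tj hk hj (hT.2 he0)
        · intro _ _ _
          exact sq_nonneg _

/-- Variance bound. -/
lemma sum_nonempty_le (h : (Edge n r → Bool) → ℝ) (hh : ∀ z, 0 ≤ h z ∧ h z ≤ 1) :
    ∑ T ∈ (univ : Finset (Finset (Edge n r))).erase ∅, coeff p h T ^ 2 ≤ 1 / 4 := by
  have e1 := parseval h0 h1 h
  have e2 : ∑ T, coeff p h T ^ 2
      = coeff p h ∅ ^ 2 + ∑ T ∈ (univ : Finset (Finset (Edge n r))).erase ∅, coeff p h T ^ 2 :=
    (Finset.add_sum_erase _ _ (Finset.mem_univ _)).symm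
  rw [coeff_empty] at e2
  have e3 : EE p (fun z => h z ^ 2) ≤ EE p h := by
    apply EE_mono h0.le h1.le
    intro z
    have := hh z
    nlinarith
  nlinarith [sq_nonneg (EE p h - 1 / 2)]

/-- `A_x ≤ 1/(4m)` for every `x`. -/
theorem res_dk_sq_le {k' : Fin n} (hinv : ∀ (π : Equiv.Perm (Fin n)) x, f (actX (edgePerm π) x) = f x)
    (hf : ∀ x, 0 ≤ f x ∧ f x ≤ 1) (x : Edge n r → Bool) :
    res p (Bk n r k'.val) (fun z => dk p f k'.val z ^ 2) x ≤ 1 / (4 * ((n : ℝ) - k'.val)) := by
  set k := k'.val with hk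
  rw [res_dk_sq_eq h0 h1]
  set h := frz k f x with hh
  set c : Finset (Edge n r) → ℝ := fun T => coeff p h T ^ 2 with hc
  have hcnn : ∀ T, 0 ≤ c T := fun T => sq_nonneg _
  set J : Finset (Fin n) := Finset.Ici k' with hJ
  have hcard : (J.card : ℝ) = (n : ℝ) - k := by
    rw [hJ, Fin.card_Ici, Nat.cast_sub k'.isLt.le]
  have hmem : ∀ j ∈ J, k ≤ j.val := by
    intro j hj
    rw [hJ, Finset.mem_Ici] at hj
    exact hj
  have hpos : (0 : ℝ) < (n : ℝ) - k := by
    have : (k : ℝ) < n := by exact_mod_cast k'.isLt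
    linarith
  have h2 : (J.card : ℝ) * ∑ T ∈ nes (Bk n r k), c T ≤ ∑ j ∈ J, ∑ T ∈ nes (Tj n r k j), c T := by
    rw [← nsmul_eq_mul, ← Finset.sum_const]
    exact Finset.sum_le_sum (fun j hj => sum_nes_le h0 h1 f hk.symm (hmem j hj) hinv x)
  have hpd : (J : Set (Fin n)).PairwiseDisjoint (fun j => nes (Tj n r k j)) := by
    intro j1 hj1 j2 hj2 hne
    simp only [Function.onFun]
    rw [Finset.disjoint_left]
    intro T hT1 hT2
    rw [mem_nes] at hT1 hT2
    obtain ⟨e, he⟩ := Finset.nonempty_iff_ne_empty.mpr hT1.1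
    have h3 := hT1.2 he
    have h4 := hT2.2 he
    simp only [Tj, Finset.mem_filter, Finset.mem_univ, true_and] at h3 h4
    have := h4.2 j1 h3.1 hne
    have := hmem j1 hj1
    omega
  have h3 : ∑ j ∈ J, ∑ T ∈ nes (Tj n r k j), c T = ∑ T ∈ J.biUnion (fun j => nes (Tj n r k j)), c T :=
    (Finset.sum_biUnion hpd).symm
  have h4 : ∑ T ∈ J.biUnion (fun j => nes (Tj n r k j)), c T
      ≤ ∑ T ∈ (univ : Finset (Finset (Edge n r))).erase ∅, c T := by
    apply Finset.sum_le_sum_of_subset_of_nonneg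
    · intro T hT
      rw [Finset.mem_biUnion] at hT
      obtain ⟨j, _, hT⟩ := hT
      rw [mem_nes] at hT
      simp [hT.1]
    · intro _ _ _
      exact hcnn _
  have h5 := sum_nonempty_le h0 h1 h (frz_nonneg f hf)
  have h6 : ((n : ℝ) - k) * ∑ T ∈ nes (Bk n r k), c T ≤ 1 / 4 := by
    rw [← hcard]
    linarith
  rw [le_div_iff₀ (by positivity)]
  nlinarith

end Sym

end Vale.Agent.Lib.P063
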