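import Vale.Agent.Lib.P063.Basic

/-!
# The biased log-Sobolev inequality on a block of coordinates.
-/

open Finset BigOperators

set_option linter.unusedSectionVars false

namespace Vale.Agent.Lib.P063

variable {ι : Type*} [Fintype ι] [DecidableEq ι]

/-- constant in the log-Sobolev inequality -/
noncomputable def lsiC (p : ℝ) : ℝ := 32 * (1 + Real.log (1 / (p * (1 - p))))

lemma pq_le_quarter (p : ℝ) : p * (1 - p) ≤ 1 / 4 := by nlinarith [sq_nonneg (p - 1 / 2)]

lemma log_pq_nonneg {p : ℝ} (h0 : 0 < p) (h1 : p < 1) : 0 ≤ Real.log (1 / (p * (1 - p))) := by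
  apply Real.log_nonneg
  have h2 := pq_pos h0 h1
  have h3 := pq_le_quarter p
  rw [le_div_iff₀ h2]
  linarith

lemma lsiC_pos {p : ℝ} (h0 : 0 < p) (h1 : p < 1) : 0 < lsiC p := by
  have := log_pq_nonneg h0 h1
  unfold lsiC
  linarith

lemma aux_le (A E : ℝ) (hA : 0 ≤ A) (hE : 0 < E) :
    A * (Real.log A - Real.log E) ≤ A * (A / E - 1) := by
  rcases hA.eq_or_lt with rfl | hA'
  · simp
  · apply mul_le_mul_of_nonneg_left _ hA
    rw [← Real.log_div hA'.ne' hE.ne']
    exact Real.log_le_sub_one_of_pos (div_pos hA' hE)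

lemma two_point_case1 {p : ℝ} (h0 : 0 < p) (hp : p ≤ 1 / 2) {a b E : ℝ}
    (hE : E = p * a ^ 2 + (1 - p) * b ^ 2) (hEpos : 0 < E) (hcase : a ^ 2 ≤ 4 * E) :
    p * (a ^ 2 * (Real.log (a ^ 2) - Real.log E)) + (1 - p) * (b ^ 2 * (Real.log (b ^ 2) - Real.log E))
      ≤ lsiC p * (p * (1 - p)) * (a - b) ^ 2 := by
  have h1 : p < 1 := by linarith
  have hq : 0 < 1 - p := by linarith
  have hq2 : 1 / 2 ≤ 1 - p := by linarith
  have hL := log_pq_nonneg h0 h1
  have hpq := pq_pos h0 h1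
  have hA : 0 ≤ a ^ 2 := sq_nonneg a
  have hB : 0 ≤ b ^ 2 := sq_nonneg b
  have hBE : (1 - p) * b ^ 2 ≤ E := by
    have := mul_nonneg h0.le hA
    rw [hE]; linarith
  have hB2 : b ^ 2 ≤ 2 * E := by nlinarith
  have ha2 := aux_le (a ^ 2) E hA hEpos
  have hb2 := aux_le (b ^ 2) E hB hEpos
  have h3 : p * (a ^ 2 * (Real.log (a ^ 2) - Real.log E)) + (1 - p) * (b ^ 2 * (Real.log (b ^ 2) - Real.log E))
      ≤ p * (a ^ 2 * (a ^ 2 / E - 1)) + (1 - p) * (b ^ 2 * (b ^ 2 / E - 1)) := by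
    have := mul_le_mul_of_nonneg_left ha2 h0.le
    have := mul_le_mul_of_nonneg_left hb2 hq.le
    linarith
  have h4 : p * (a ^ 2 * (a ^ 2 / E - 1)) + (1 - p) * (b ^ 2 * (b ^ 2 / E - 1))
      = p * (1 - p) * (a ^ 2 - b ^ 2) ^ 2 / E := by
    field_simp
    rw [hE]
    ring
  have h5 : (a ^ 2 - b ^ 2) ^ 2 ≤ (a - b) ^ 2 * (12 * E) := by
    have e1 : a ^ 2 - b ^ 2 = (a - b) * (a + b) := by ring
    have e2 : (a + b) ^ 2 ≤ 12 * E := by
      have : (a + b) ^ 2 ≤ 2 * (a ^ 2 + b ^ 2) := by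
        nlinarith [sq_nonneg (a - b)]
      linarith
    rw [e1, mul_pow]
    exact mul_le_mul_of_nonneg_left e2 (sq_nonneg _)
  have h6 : p * (1 - p) * (a ^ 2 - b ^ 2) ^ 2 / E ≤ 12 * (p * (1 - p) * (a - b) ^ 2) := by
    rw [div_le_iff₀ hEpos]
    have := mul_le_mul_of_nonneg_left h5 hpq.le
    calc _ ≤ _ := this
      _ = _ := by ring
  have h7 : 12 * (p * (1 - p) * (a - b) ^ 2) ≤ lsiC p * (p * (1 - p)) * (a - b) ^ 2 := by
    have : (12 : ℝ) ≤ lsiC p := by
      unfold lsiC; linarith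
    have h8 : 0 ≤ p * (1 - p) * (a - b) ^ 2 := mul_nonneg hpq.le (sq_nonneg _)
    calc _ ≤ lsiC p * (p * (1 - p) * (a - b) ^ 2) := mul_le_mul_of_nonneg_right this h8
      _ = _ := by ring
  linarith

lemma two_point_case2 {p : ℝ} (h0 : 0 < p) (hp : p ≤ 1 / 2) {a b E : ℝ} (ha : 0 ≤ a)
    (hE : E = p * a ^ 2 + (1 - p) * b ^ 2) (hEpos : 0 < E) (hcase : 4 * E < a ^ 2) :
    p * (a ^ 2 * (Real.log (a ^ 2) - Real.log E)) + (1 - p) * (b ^ 2 * (Real.log (b ^ 2) - Real.log E))
      ≤ lsiC p * (p * (1 - p)) * (a - b) ^ 2 := by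
  have h1 : p < 1 := by linarith
  have hq : 0 < 1 - p := by linarith
  have hq2 : 1 / 2 ≤ 1 - p := by linarith
  have hL := log_pq_nonneg h0 h1
  have hpq := pq_pos h0 h1
  have hA : 0 ≤ a ^ 2 := sq_nonneg a
  have hB : 0 ≤ b ^ 2 := sq_nonneg b
  have hBE : (1 - p) * b ^ 2 ≤ E := by
    have := mul_nonneg h0.le hA
    rw [hE]; linarith
  have hAE : p * a ^ 2 ≤ E := by
    have := mul_nonneg hq.le hB
    rw [hE]; linarith
  have hB2 : b ^ 2 ≤ 2 * E := by nlinarith
  have hb2 := aux_le (b ^ 2) E hB hEpos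
  have hApos : 0 < a ^ 2 := by linarith
  have hBA : b ^ 2 * 2 ≤ a ^ 2 := by linarith
  have hBE' : b ^ 2 ≤ E := by
    rw [hE]
    nlinarith
  have h3 : (1 - p) * (b ^ 2 * (Real.log (b ^ 2) - Real.log E)) ≤ 0 := by
    have h4 : (1 - p) * (b ^ 2 * (b ^ 2 / E - 1)) ≤ 0 := by
      apply mul_nonpos_of_nonneg_of_nonpos hq.le
      apply mul_nonpos_of_nonneg_of_nonpos hB
      have : b ^ 2 / E ≤ 1 := (div_le_one hEpos).mpr hBE'
      linarith
    have := mul_le_mul_of_nonneg_left hb2 hq.le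
    linarith
  have h4 : Real.log (a ^ 2) - Real.log E ≤ Real.log (1 / (p * (1 - p))) := by
    rw [← Real.log_div hApos.ne' hEpos.ne']
    apply Real.log_le_log (div_pos hApos hEpos)
    rw [div_le_div_iff₀ hEpos hpq]
    have : p * a ^ 2 * (1 - p) ≤ E * 1 := by
      have : p * a ^ 2 * (1 - p) ≤ p * a ^ 2 * 1 :=
        mul_le_mul_of_nonneg_left (by linarith) (mul_nonneg h0.le hA)
      linarith
    calc _ = p * a ^ 2 * (1 - p) := by ring
      _ ≤ E * 1 := this
      _ = _ := by ring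
  have h5 : b ≤ 3 / 4 * a := by
    by_contra hc
    push Not at hc
    have ha' : 0 ≤ 3 / 4 * a := by positivity
    have h6 : (3 / 4 * a) ^ 2 < b ^ 2 := pow_lt_pow_left₀ hc ha' (by norm_num)
    have h7 : (3 / 4 * a) ^ 2 = 9 / 16 * a ^ 2 := by ring
    linarith
  have h6 : a ^ 2 ≤ 16 * (a - b) ^ 2 := by
    have : a / 4 ≤ a - b := by linarith
    have h7 : (a / 4) ^ 2 ≤ (a - b) ^ 2 := pow_le_pow_left₀ (by positivity) this 2
    have h8 : (a / 4) ^ 2 = a ^ 2 / 16 := by ring
    linarith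
  have h7 : p * (a ^ 2 * (Real.log (a ^ 2) - Real.log E)) ≤ p * a ^ 2 * Real.log (1 / (p * (1 - p))) := by
    have := mul_le_mul_of_nonneg_left h4 (mul_nonneg h0.le hA)
    calc _ = p * a ^ 2 * (Real.log (a ^ 2) - Real.log E) := by ring
      _ ≤ _ := this
  have h8 : p * a ^ 2 * Real.log (1 / (p * (1 - p)))
      ≤ lsiC p * (p * (1 - p)) * (a - b) ^ 2 := by
    have h9 : p * a ^ 2 ≤ 32 * (p * (1 - p) * (a - b) ^ 2) := by
      have h10 : p * a ^ 2 ≤ p * (16 * (a - b) ^ 2) := mul_le_mul_of_nonneg_left h6 h0.le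
      have h11 : 0 ≤ p * (a - b) ^ 2 := mul_nonneg h0.le (sq_nonneg _)
      have h12 : p * (a - b) ^ 2 * (1 / 2) ≤ p * (a - b) ^ 2 * (1 - p) :=
        mul_le_mul_of_nonneg_left hq2 h11
      calc _ ≤ p * (16 * (a - b) ^ 2) := h10
        _ = 32 * (p * (a - b) ^ 2 * (1 / 2)) := by ring
        _ ≤ 32 * (p * (a - b) ^ 2 * (1 - p)) := by linarith
        _ = _ := by ring
    have h10 : p * a ^ 2 * Real.log (1 / (p * (1 - p)))
        ≤ 32 * (p * (1 - p) * (a - b) ^ 2) * Real.log (1 / (p * (1 - p))) :=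
      mul_le_mul_of_nonneg_right h9 hL
    have h11 : 0 ≤ 32 * (p * (1 - p) * (a - b) ^ 2) := by
      have : 0 ≤ p * (1 - p) * (a - b) ^ 2 := mul_nonneg hpq.le (sq_nonneg _)
      linarith
    unfold lsiC
    calc _ ≤ _ := h10
      _ ≤ 32 * (p * (1 - p) * (a - b) ^ 2) * (1 + Real.log (1 / (p * (1 - p)))) :=
        mul_le_mul_of_nonneg_left (by linarith) h11
      _ = _ := by ring
  linarith

/-- Two-point inequality when `p ≤ 1/2`. -/
lemma two_point_aux {p : ℝ} (h0 : 0 < p) (hp : p ≤ 1 / 2) {a b : ℝ} (ha : 0 ≤ a) (hb : 0 ≤ b) :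
    p * (a ^ 2 * Real.log (a ^ 2)) + (1 - p) * (b ^ 2 * Real.log (b ^ 2))
        - (p * a ^ 2 + (1 - p) * b ^ 2) * Real.log (p * a ^ 2 + (1 - p) * b ^ 2)
      ≤ lsiC p * (p * (1 - p)) * (a - b) ^ 2 := by
  have h1 : p < 1 := by linarith
  have hq : 0 < 1 - p := by linarith
  have hpq := pq_pos h0 h1
  have hA : 0 ≤ a ^ 2 := sq_nonneg a
  have hB : 0 ≤ b ^ 2 := sq_nonneg b
  have hCnn : 0 ≤ lsiC p * (p * (1 - p)) * (a - b) ^ 2 :=
    mul_nonneg (mul_nonneg (lsiC_pos h0 h1).le hpq.le) (sq_nonneg _)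
  obtain ⟨E, hE⟩ : ∃ E, E = p * a ^ 2 + (1 - p) * b ^ 2 := ⟨_, rfl⟩
  rw [← hE]
  rcases (show 0 ≤ E by rw [hE]; positivity).eq_or_lt with hE0 | hEpos
  · -- degenerate case
    have hA1 := mul_nonneg h0.le hA
    have hB1 := mul_nonneg hq.le hB
    have hA0 : a ^ 2 = 0 := by
      have : p * a ^ 2 = 0 := by linarith
      exact (mul_eq_zero.mp this).resolve_left h0.ne'
    have hB0 : b ^ 2 = 0 := by
      have : (1 - p) * b ^ 2 = 0 := by linarith
      exact (mul_eq_zero.mp this).resolve_left hq.ne'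
    rw [← hE0, hA0, hB0]
    simpa using hCnn
  have hLHS : p * (a ^ 2 * Real.log (a ^ 2)) + (1 - p) * (b ^ 2 * Real.log (b ^ 2)) - E * Real.log E
      = p * (a ^ 2 * (Real.log (a ^ 2) - Real.log E))
        + (1 - p) * (b ^ 2 * (Real.log (b ^ 2) - Real.log E)) := by
    rw [hE]; ring
  rw [hLHS]
  by_cases hcase : a ^ 2 ≤ 4 * E
  · exact two_point_case1 h0 hp hE hEpos hcase
  · push Not at hcase
    exact two_point_case2 h0 hp ha hE hEpos hcase

/-- The two-point biased log-Sobolev inequality. -/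
lemma two_point {p : ℝ} (h0 : 0 < p) (h1 : p < 1) (a b : ℝ) :
    p * (a ^ 2 * Real.log (a ^ 2)) + (1 - p) * (b ^ 2 * Real.log (b ^ 2))
        - (p * a ^ 2 + (1 - p) * b ^ 2) * Real.log (p * a ^ 2 + (1 - p) * b ^ 2)
      ≤ lsiC p * (p * (1 - p)) * (a - b) ^ 2 := by
  have hC : 0 ≤ lsiC p * (p * (1 - p)) :=
    mul_nonneg (lsiC_pos h0 h1).le (pq_pos h0 h1).le
  have habs : (|a| - |b|) ^ 2 ≤ (a - b) ^ 2 := by
    have := abs_abs_sub_abs_le_abs_sub a b
    have h2 := sq_le_sq' (by linarith [abs_nonneg (|a| - |b|), abs_nonneg (a - b)]) this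
    simpa [sq_abs] using h2
  have hmono := mul_le_mul_of_nonneg_left habs hC
  by_cases hp : p ≤ 1 / 2
  · have := two_point_aux h0 hp (abs_nonneg a) (abs_nonneg b)
    simp only [sq_abs] at this
    linarith
  · push Not at hp
    have hq0 : 0 < 1 - p := by linarith
    have hq : 1 - p ≤ 1 / 2 := by linarith
    have := two_point_aux hq0 hq (abs_nonneg b) (abs_nonneg a)
    simp only [sq_abs, sub_sub_cancel] at this
    have e1 : lsiC (1 - p) = lsiC p := by
      unfold lsiC
      rw [sub_sub_cancel, mul_comm (1 - p) p]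
    rw [e1] at this
    have e2 : (|b| - |a|) ^ 2 = (|a| - |b|) ^ 2 := by ring
    rw [e2, mul_comm (1 - p) p] at this
    have e3 : (1 - p) * b ^ 2 + p * a ^ 2 = p * a ^ 2 + (1 - p) * b ^ 2 := by ring
    rw [e3] at this
    linarith

/-- Weighted Cauchy-Schwarz/Minkowski. -/
lemma mink {Y : Type*} [Fintype Y] (w a b : Y → ℝ) (hw : ∀ y, 0 ≤ w y) :
    (Real.sqrt (∑ y, w y * a y ^ 2) - Real.sqrt (∑ y, w y * b y ^ 2)) ^ 2
      ≤ ∑ y, w y * (a y - b y) ^ 2 := by
  have hA : 0 ≤ ∑ y, w y * a y ^ 2 := Finset.sum_nonneg (fun y _ => mul_nonneg (hw y) (sq_nonneg _))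
  have hB : 0 ≤ ∑ y, w y * b y ^ 2 := Finset.sum_nonneg (fun y _ => mul_nonneg (hw y) (sq_nonneg _))
  have hcs := Real.sum_mul_le_sqrt_mul_sqrt (univ : Finset Y)
    (fun y => Real.sqrt (w y) * a y) (fun y => Real.sqrt (w y) * b y)
  have e1 : ∀ (c : Y → ℝ) y, (Real.sqrt (w y) * c y) ^ 2 = w y * c y ^ 2 := by
    intro c y
    rw [mul_pow, Real.sq_sqrt (hw y)]
  simp only [e1] at hcs
  have e2 : ∀ y, Real.sqrt (w y) * a y * (Real.sqrt (w y) * b y) = w y * (a y * b y) := by
    intro y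
    have := Real.mul_self_sqrt (hw y)
    calc _ = (Real.sqrt (w y) * Real.sqrt (w y)) * (a y * b y) := by ring
      _ = _ := by rw [this]
  simp only [e2] at hcs
  have e3 : ∑ y, w y * (a y - b y) ^ 2
      = ∑ y, w y * a y ^ 2 + ∑ y, w y * b y ^ 2 - 2 * ∑ y, w y * (a y * b y) := by
    rw [Finset.mul_sum, ← Finset.sum_add_distrib, ← Finset.sum_sub_distrib]
    refine Finset.sum_congr rfl (fun y _ => ?_)
    ring
  rw [e3]
  have e4 := Real.sq_sqrt hA
  have e5 := Real.sq_sqrt hB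
  nlinarith

/-- entropy of `h` on the block `B`, at the point `x` -/
noncomputable def entB (p : ℝ) (B : Finset ι) (h : (ι → Bool) → ℝ) (x : ι → Bool) : ℝ :=
  res p B (fun z => h z * Real.log (h z)) x - res p B h x * Real.log (res p B h x)

lemma mrg_update_not_mem {B : Finset ι} {e : ι} (he : e ∉ B) (y x : ι → Bool) (b : Bool) :
    mrg B y (Function.update x e b) = Function.update (mrg B y x) e b := by
  ext e'
  by_cases h : e' = e
  · subst h; simp [mrg, he]
  · by_cases h2 : e' ∈ B <;> simp [mrg, h2, h]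

/-- key one-step estimate of the tensorisation -/
lemma Dd_sqrt_le {p : ℝ} (h0 : 0 ≤ p) (h1 : p ≤ 1) {B : Finset ι} {e : ι} (he : e ∉ B)
    (g : (ι → Bool) → ℝ) (x : ι → Bool) :
    (Real.sqrt (res p B (fun z => g z ^ 2) (Function.update x e true))
      - Real.sqrt (res p B (fun z => g z ^ 2) (Function.update x e false))) ^ 2
    ≤ res p B (fun z => Dd e g z ^ 2) x := by
  have := mink (fun y : ι → Bool => wt p y) (fun y => g (Function.update (mrg B y x) e true))
    (fun y => g (Function.update (mrg B y x) e false)) (fun y => wt_nonneg h0 h1 y)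
  simp only [res, mrg_update_not_mem he, Dd]
  exact this

/-- Tensorisation: the log-Sobolev inequality on a block. -/
theorem lsi_block {p : ℝ} (h0 : 0 < p) (h1 : p < 1) (g : (ι → Bool) → ℝ) (B : Finset ι) :
    ∀ x, entB p B (fun z => g z ^ 2) x
      ≤ lsiC p * (p * (1 - p)) * ∑ e ∈ B, res p B (fun z => Dd e g z ^ 2) x := by
  induction B using Finset.induction_on with
  | empty =>
    intro x
    simp [entB, res_empty]
  | insert e B he ih =>
    intro x
    set K := lsiC p * (p * (1 - p)) with hK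
    have hKnn : 0 ≤ K := mul_nonneg (lsiC_pos h0 h1).le (pq_pos h0 h1).le
    have hins : insert e B = ({e} : Finset ι) ∪ B := by
      ext; simp
    have hres : ∀ h : (ι → Bool) → ℝ, res p (insert e B) h = res p {e} (res p B h) := by
      intro h
      rw [hins, res_res]
    set Φ : (ι → Bool) → ℝ := res p B (fun z => g z ^ 2) with hΦ
    have hΦnn : ∀ z, 0 ≤ Φ z := fun z =>
      res_nonneg h0.le h1.le B (fun z => sq_nonneg _) z
    -- unfold the entropy
    have hent : entB p (insert e B) (fun z => g z ^ 2) x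
        = res p {e} (res p B (fun z => g z ^ 2 * Real.log (g z ^ 2))) x
          - res p {e} Φ x * Real.log (res p {e} Φ x) := by
      unfold entB
      rw [hres, hres]
    rw [hent]
    -- the induction hypothesis, pointwise
    have hih : ∀ z, res p B (fun z => g z ^ 2 * Real.log (g z ^ 2)) z
        ≤ Φ z * Real.log (Φ z) + K * ∑ e' ∈ B, res p B (fun z => Dd e' g z ^ 2) z := by
      intro z
      have := ih z
      unfold entB at this
      linarith
    have hmono := res_mono h0.le h1.le {e} hih x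
    -- the right hand side
    have hrhs : res p {e} (fun z => Φ z * Real.log (Φ z)
          + K * ∑ e' ∈ B, res p B (fun z => Dd e' g z ^ 2) z) x
        = res p {e} (fun z => Φ z * Real.log (Φ z)) x
          + K * ∑ e' ∈ B, res p (insert e B) (fun z => Dd e' g z ^ 2) x := by
      rw [res_add, res_const_mul]
      simp only [res_sum]
      congr 2
      refine Finset.sum_congr rfl (fun e' _ => ?_)
      rw [hres]
    rw [hrhs] at hmono
    -- two-point inequality for `ψ = sqrt Φ`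
    have htwo := two_point h0 h1
      (Real.sqrt (Φ (Function.update x e true))) (Real.sqrt (Φ (Function.update x e false)))
    rw [Real.sq_sqrt (hΦnn _), Real.sq_sqrt (hΦnn _)] at htwo
    have hDd := Dd_sqrt_le h0.le h1.le he g x
    have hDd2 : K * (Real.sqrt (Φ (Function.update x e true))
        - Real.sqrt (Φ (Function.update x e false))) ^ 2
        ≤ K * res p B (fun z => Dd e g z ^ 2) x :=
      mul_le_mul_of_nonneg_left hDd hKnn
    -- the sum over `insert e B`
    have hsum : ∑ e' ∈ insert e B, res p (insert e B) (fun z => Dd e' g z ^ 2) x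
        = res p B (fun z => Dd e g z ^ 2) x
          + ∑ e' ∈ B, res p (insert e B) (fun z => Dd e' g z ^ 2) x := by
      rw [Finset.sum_insert he]
      congr 1
      have hind : IndepOf {e} (fun z => Dd e g z ^ 2) := by
        intro z z' h
        simp only [indepOf_Dd e g z z' h]
      have h2 : insert e B = B ∪ {e} := by ext; simp
      rw [h2, ← res_res, res_eq_self hind]
    rw [hsum, mul_add]
    have h3 : res p {e} (fun z => Φ z * Real.log (Φ z)) x
        = p * (Φ (Function.update x e true) * Real.log (Φ (Function.update x e true)))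
          + (1 - p) * (Φ (Function.update x e false) * Real.log (Φ (Function.update x e false))) :=
      res_singleton p e _ x
    have h4 : res p {e} Φ x
        = p * Φ (Function.update x e true) + (1 - p) * Φ (Function.update x e false) :=
      res_singleton p e _ x
    rw [h4] at *
    rw [h3] at hmono
    linarith

/-- Integrated form of the block log-Sobolev inequality. -/
theorem lsi_block_int {p : ℝ} (h0 : 0 < p) (h1 : p < 1) (g : (ι → Bool) → ℝ) (B : Finset ι) :
    EE p (entB p B (fun z => g z ^ 2))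
      ≤ lsiC p * (p * (1 - p)) * ∑ e ∈ B, EE p (fun z => Dd e g z ^ 2) := by
  have := EE_mono h0.le h1.le (lsi_block h0 h1 g B)
  refine this.trans (le_of_eq ?_)
  rw [EE_const_mul, EE_sum]
  congr 1
  refine Finset.sum_congr rfl (fun e _ => ?_)
  exact EE_res p B _

/-- Entropy lower bound for a weighted family. -/
lemma ent_lower {Y : Type*} [Fintype Y] (w φ : Y → ℝ) (hw : ∀ y, 0 ≤ w y) (Bb : ℝ)
    (hBb : Bb = ∑ y, w y * |φ y|) (hBpos : 0 < Bb) (A : ℝ) (hA : A = ∑ y, w y * φ y ^ 2)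
    (hApos : 0 < A) :
    2 * A * (Real.log A - Real.log Bb) ≤ ∑ y, w y * (φ y ^ 2 * Real.log (φ y ^ 2)) := by
  set t := A / Bb with ht
  have htpos : 0 < t := div_pos hApos hBpos
  have hpt : ∀ y, φ y ^ 2 * Real.log t - φ y ^ 2 * Real.log |φ y| ≤ t * |φ y| - φ y ^ 2 := by
    intro y
    rcases (abs_nonneg (φ y)).eq_or_lt with h | h
    · have : φ y = 0 := abs_eq_zero.mp h.symm
      simp [this]
    · have h2 : Real.log t - Real.log |φ y| ≤ t / |φ y| - 1 := by
        rw [← Real.log_div htpos.ne' h.ne']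
        exact Real.log_le_sub_one_of_pos (div_pos htpos h)
      have h3 := mul_le_mul_of_nonneg_left h2 (sq_nonneg (φ y))
      have h4 : φ y ^ 2 * (t / |φ y| - 1) = t * |φ y| - φ y ^ 2 := by
        have : φ y ^ 2 = |φ y| * |φ y| := by rw [← sq_abs, sq]
        rw [this]
        field_simp
      rw [h4] at h3
      linarith
  have hsum : A * Real.log t - ∑ y, w y * (φ y ^ 2 * Real.log |φ y|) ≤ t * Bb - A := by
    have := Finset.sum_le_sum (fun y (_ : y ∈ (univ : Finset Y)) =>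
      mul_le_mul_of_nonneg_left (hpt y) (hw y))
    have e1 : ∑ y, w y * (φ y ^ 2 * Real.log t - φ y ^ 2 * Real.log |φ y|)
        = A * Real.log t - ∑ y, w y * (φ y ^ 2 * Real.log |φ y|) := by
      rw [hA, Finset.sum_mul, ← Finset.sum_sub_distrib]
      refine Finset.sum_congr rfl (fun y _ => ?_)
      ring
    have e2 : ∑ y, w y * (t * |φ y| - φ y ^ 2) = t * Bb - A := by
      rw [hA, hBb, Finset.mul_sum, ← Finset.sum_sub_distrib]
      refine Finset.sum_congr rfl (fun y _ => ?_)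
      ring
    rw [e1, e2] at this
    exact this
  have htB : t * Bb = A := by
    rw [ht]; field_simp
  have hlog : ∀ y, φ y ^ 2 * Real.log (φ y ^ 2) = 2 * (φ y ^ 2 * Real.log |φ y|) := by
    intro y
    rw [← sq_abs, Real.log_pow]
    push_cast
    ring
  have e3 : ∑ y, w y * (φ y ^ 2 * Real.log (φ y ^ 2))
      = 2 * ∑ y, w y * (φ y ^ 2 * Real.log |φ y|) := by
    rw [Finset.mul_sum]
    refine Finset.sum_congr rfl (fun y _ => ?_)
    rw [hlog]
    ring
  rw [e3]
  have e4 : Real.log t = Real.log A - Real.log Bb := Real.log_div hApos.ne' hBpos.ne'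
  rw [e4, htB] at hsum
  have e5 : 2 * A * (Real.log A - Real.log Bb) = 2 * (A * (Real.log A - Real.log Bb)) := by ring
  rw [e5]
  linarith

/-- Weighted Cauchy-Schwarz: `(E|φ|)^2 ≤ E φ^2`. -/
lemma abs_sq_le {Y : Type*} [Fintype Y] (w φ : Y → ℝ) (hw : ∀ y, 0 ≤ w y)
    (hw1 : ∑ y, w y = 1) :
    (∑ y, w y * |φ y|) ^ 2 ≤ ∑ y, w y * φ y ^ 2 := by
  have := Finset.sum_mul_sq_le_sq_mul_sq (univ : Finset Y)
    (fun y => Real.sqrt (w y)) (fun y => Real.sqrt (w y) * |φ y|)
  have e1 : ∀ y, Real.sqrt (w y) * (Real.sqrt (w y) * |φ y|) = w y * |φ y| := by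
    intro y
    rw [← mul_assoc, Real.mul_self_sqrt (hw y)]
  have e2 : ∀ y, Real.sqrt (w y) ^ 2 = w y := fun y => Real.sq_sqrt (hw y)
  have e3 : ∀ y, (Real.sqrt (w y) * |φ y|) ^ 2 = w y * φ y ^ 2 := by
    intro y
    rw [mul_pow, e2, sq_abs]
  simp only [e1, e2, e3, hw1, one_mul] at this
  exact this

/-- The pointwise good/bad estimate. -/
lemma pointwise_good_bad {Y : Type*} [Fintype Y] (w φ : Y → ℝ) (hw : ∀ y, 0 ≤ w y)
    (hw1 : ∑ y, w y = 1) {Lam s : ℝ} (hLam : 1 ≤ Lam) (hs : 0 ≤ s)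
    (hAs : ∑ y, w y * φ y ^ 2 ≤ s ^ 2) :
    Real.log Lam * (∑ y, w y * φ y ^ 2)
      ≤ (∑ y, w y * (φ y ^ 2 * Real.log (φ y ^ 2)))
          - (∑ y, w y * φ y ^ 2) * Real.log (∑ y, w y * φ y ^ 2)
        + Real.log Lam * Real.sqrt Lam * s * (∑ y, w y * |φ y|) := by
  set A := ∑ y, w y * φ y ^ 2 with hA
  set Bb := ∑ y, w y * |φ y| with hBb
  have hBnn : 0 ≤ Bb := Finset.sum_nonneg (fun y _ => mul_nonneg (hw y) (abs_nonneg _))
  have hAnn : 0 ≤ A := Finset.sum_nonneg (fun y _ => mul_nonneg (hw y) (sq_nonneg _))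
  have hlogL : 0 ≤ Real.log Lam := Real.log_nonneg hLam
  have hsqrtL : 0 ≤ Real.sqrt Lam := Real.sqrt_nonneg _
  have hCS : Bb ^ 2 ≤ A := abs_sq_le w φ hw hw1
  rcases hAnn.eq_or_lt with hA0 | hApos
  · -- degenerate: `A = 0`
    have h0 : ∀ y, w y * φ y ^ 2 = 0 := by
      intro y
      have := (Finset.sum_eq_zero_iff_of_nonneg
        (fun y _ => mul_nonneg (hw y) (sq_nonneg (φ y)))).mp hA0.symm y (Finset.mem_univ y)
      exact this
    have h1 : ∑ y, w y * (φ y ^ 2 * Real.log (φ y ^ 2)) = 0 := by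
      refine Finset.sum_eq_zero (fun y _ => ?_)
      rw [← mul_assoc, h0 y, zero_mul]
    rw [h1, ← hA0]
    simp only [mul_zero, zero_mul, sub_zero, zero_add]
    positivity
  have hBpos : 0 < Bb := by
    rcases hBnn.eq_or_lt with hB0 | hB
    · exfalso
      have h1 : ∀ y, w y * |φ y| = 0 := by
        intro y
        have := (Finset.sum_eq_zero_iff_of_nonneg
          (fun y _ => mul_nonneg (hw y) (abs_nonneg (φ y)))).mp hB0.symm y (Finset.mem_univ y)
        exact this
      have h2 : A = 0 := by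
        refine Finset.sum_eq_zero (fun y _ => ?_)
        rcases mul_eq_zero.mp (h1 y) with h | h
        · simp [h]
        · have : φ y = 0 := abs_eq_zero.mp h
          simp [this]
      linarith
    · exact hB
  have hent := ent_lower w φ hw Bb hBb hBpos A hA hApos
  have hlog2 : 2 * Real.log Bb ≤ Real.log A := by
    have := Real.log_le_log (by positivity) hCS
    rw [Real.log_pow] at this
    push_cast at this
    exact this
  have hEntnn : 0 ≤ (∑ y, w y * (φ y ^ 2 * Real.log (φ y ^ 2))) - A * Real.log A := by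
    nlinarith
  have hextra : 0 ≤ Real.log Lam * Real.sqrt Lam * s * Bb := by positivity
  by_cases hcase : Lam * Bb ^ 2 ≤ A
  · have h1 : Real.log Lam ≤ Real.log A - 2 * Real.log Bb := by
      have h2 : Real.log (Lam * Bb ^ 2) ≤ Real.log A :=
        Real.log_le_log (by positivity) hcase
      rw [Real.log_mul (by positivity) (by positivity), Real.log_pow] at h2
      push_cast at h2
      linarith
    have h3 := mul_le_mul_of_nonneg_left h1 hAnn
    nlinarith
  · push Not at hcase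
    have h1 : Real.sqrt A ≤ Real.sqrt Lam * Bb := by
      have : Real.sqrt A ≤ Real.sqrt (Lam * Bb ^ 2) := Real.sqrt_le_sqrt hcase.le
      rw [Real.sqrt_mul (by linarith), Real.sqrt_sq hBnn] at this
      exact this
    have h2 : Real.sqrt A ≤ s := by
      have : Real.sqrt A ≤ Real.sqrt (s ^ 2) := Real.sqrt_le_sqrt hAs
      rwa [Real.sqrt_sq hs] at this
    have h3 : A ≤ s * (Real.sqrt Lam * Bb) := by
      have h4 : A = Real.sqrt A * Real.sqrt A := (Real.mul_self_sqrt hAnn).symm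
      rw [h4]
      exact mul_le_mul h2 h1 (Real.sqrt_nonneg _) hs
    have h5 := mul_le_mul_of_nonneg_left h3 hlogL
    nlinarith

/-- The block inequality, integrated. -/
theorem block_ineq {p : ℝ} (h0 : 0 < p) (h1 : p < 1) (g : (ι → Bool) → ℝ) (B : Finset ι)
    {Lam s : ℝ} (hLam : 1 ≤ Lam) (hs : 0 ≤ s)
    (hAs : ∀ x, res p B (fun z => g z ^ 2) x ≤ s ^ 2) :
    Real.log Lam * EE p (fun z => g z ^ 2)
      ≤ lsiC p * (p * (1 - p)) * ∑ e ∈ B, EE p (fun z => Dd e g z ^ 2)
        + Real.log Lam * Real.sqrt Lam * s * EE p (fun z => |g z|) := by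
  have hpt : ∀ x, Real.log Lam * res p B (fun z => g z ^ 2) x
      ≤ entB p B (fun z => g z ^ 2) x
        + Real.log Lam * Real.sqrt Lam * s * res p B (fun z => |g z|) x := by
    intro x
    have := pointwise_good_bad (fun y : ι → Bool => wt p y) (fun y => g (mrg B y x))
      (fun y => wt_nonneg h0.le h1.le y) (wt_sum p) hLam hs (hAs x)
    exact this
  have hint := EE_mono h0.le h1.le hpt
  rw [EE_const_mul, EE_res, EE_add, EE_const_mul, EE_res] at hint
  have := lsi_block_int h0 h1 g B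
  linarith

end Vale.Agent.Lib.P063
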