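import Vale.Agent.Lib.P063.Top

/-!
# The main inequality.
-/

open Finset BigOperators

set_option linter.unusedSectionVars false

namespace Vale.Agent.Lib.P063

variable {n r : ℕ}

/-- the variance in Fourier form -/
noncomputable def VV (p : ℝ) (f : (Edge n r → Bool) → ℝ) : ℝ :=
  ∑ T ∈ (univ : Finset (Finset (Edge n r))).erase ∅, coeff p f T ^ 2

/-- the total influence (times `p (1-p)`) in Fourier form -/
noncomputable def JJ (p : ℝ) (f : (Edge n r → Bool) → ℝ) : ℝ :=
  ∑ T : Finset (Edge n r), (T.card : ℝ) * coeff p f T ^ 2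

lemma VV_nonneg (p : ℝ) (f : (Edge n r → Bool) → ℝ) : 0 ≤ VV p f :=
  Finset.sum_nonneg (fun _ _ => sq_nonneg _)

lemma JJ_nonneg (p : ℝ) (f : (Edge n r → Bool) → ℝ) : 0 ≤ JJ p f :=
  Finset.sum_nonneg (fun _ _ => mul_nonneg (Nat.cast_nonneg _) (sq_nonneg _))

section
variable {p : ℝ} (h0 : 0 < p) (h1 : p < 1) (f : (Edge n r → Bool) → ℝ)
include h0 h1

lemma EE_dk_sq (k : ℕ) :
    EE p (fun z => dk p f k z ^ 2)
      = ∑ T : Finset (Edge n r), (ind (k + 1) T - ind k T) * coeff p f T ^ 2 := by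
  rw [parseval h0 h1]
  refine Finset.sum_congr rfl (fun T _ => ?_)
  rw [coeff_dk h0 h1, mul_pow, ind_sub_sq]

lemma pq_EE_Dd_dk (k : ℕ) (e : Edge n r) :
    p * (1 - p) * EE p (fun z => Dd e (dk p f k) z ^ 2)
      = ∑ T : Finset (Edge n r), if e ∈ T then (ind (k + 1) T - ind k T) * coeff p f T ^ 2 else 0 := by
  rw [pq_Dd_sq h0 h1]
  refine Finset.sum_congr rfl (fun T _ => ?_)
  rw [coeff_dk h0 h1, mul_pow, ind_sub_sq]

omit h0 h1 in
lemma ind_top (T : Finset (Edge n r)) : ind n T = 1 := by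
  have : T ⊆ Wk n r n := by
    rw [subset_Wk_iff]
    exact fun v _ => v.isLt
  simp [ind, this]

omit h0 h1 in
lemma ind_zero (hr : 1 ≤ r) (T : Finset (Edge n r)) : ind 0 T = if T = ∅ then 1 else 0 := by
  by_cases hT : T = ∅
  · subst hT
    simp [ind]
  · have : ¬ T ⊆ Wk n r 0 := by
      intro h
      obtain ⟨e, he⟩ := Finset.nonempty_iff_ne_empty.mpr hT
      have h2 := mem_Wk.mp (h he)
      have : e.1.Nonempty := by
        rw [← Finset.card_pos, e.2]
        omega
      obtain ⟨v, hv⟩ := this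
      exact absurd (h2 v hv) (by omega)
    simp [ind, this, hT]

/-- The increments add up to the variance. -/
lemma sum_dk_sq (hr : 1 ≤ r) :
    ∑ k : Fin n, EE p (fun z => dk p f k.val z ^ 2) = VV p f := by
  simp only [EE_dk_sq h0 h1 f]
  rw [Finset.sum_comm]
  have h2 : ∀ T : Finset (Edge n r),
      ∑ k : Fin n, (ind (k.val + 1) T - ind k.val T) * coeff p f T ^ 2
        = if T = ∅ then 0 else coeff p f T ^ 2 := by
    intro T
    rw [← Finset.sum_mul, Fin.sum_univ_eq_sum_range (fun k => ind (k + 1) T - ind k T) n,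
      Finset.sum_range_sub (fun k => ind k T) n, ind_top, ind_zero hr]
    by_cases hT : T = ∅ <;> simp [hT]
  simp only [h2]
  unfold VV
  rw [← Finset.add_sum_erase _ _ (Finset.mem_univ (∅ : Finset (Edge n r)))]
  simp only [if_true, zero_add]
  refine Finset.sum_congr rfl (fun T hT => ?_)
  rw [if_neg (Finset.ne_of_mem_erase hT)]

/-- The second-order sum. -/
lemma sum_Dd_dk :
    ∑ k : Fin n, ∑ e ∈ Bk n r k.val, p * (1 - p) * EE p (fun z => Dd e (dk p f k.val) z ^ 2)
      = ∑ T : Finset (Edge n r), coeff p f T ^ 2 * GG T := by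
  classical
  simp only [pq_EE_Dd_dk h0 h1 f]
  have h2 : ∀ k : Fin n, ∑ e ∈ Bk n r k.val, ∑ T : Finset (Edge n r),
      (if e ∈ T then (ind (k.val + 1) T - ind k.val T) * coeff p f T ^ 2 else 0)
      = ∑ T : Finset (Edge n r), coeff p f T ^ 2 * ((ind (k.val + 1) T - ind k.val T)
          * (((Bk n r k.val).filter (fun e => e ∈ T)).card : ℝ)) := by
    intro k
    rw [Finset.sum_comm]
    refine Finset.sum_congr rfl (fun T _ => ?_)
    rw [Finset.sum_ite, Finset.sum_const_zero, add_zero, Finset.sum_const, nsmul_eq_mul]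
    ring
  simp only [h2]
  rw [Finset.sum_comm]
  refine Finset.sum_congr rfl (fun T _ => ?_)
  rw [← Finset.mul_sum, sum_term_eq]

omit h0 h1 in
lemma a_inv (hinv : ∀ (π : Equiv.Perm (Fin n)) x, f (actX (edgePerm π) x) = f x)
    (π : Equiv.Perm (Fin n)) (T : Finset (Edge n r)) :
    coeff p f (T.map (edgePerm π).toEmbedding) ^ 2 = coeff p f T ^ 2 := by
  rw [coeff_map (edgePerm π) (hinv π) T]

/-- Averaged form of the second-order sum, with the weight bound. -/
lemma sum_Dd_dk_le (hr : 1 ≤ r) (hinv : ∀ (π : Equiv.Perm (Fin n)) x, f (actX (edgePerm π) x) = f x)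
    {L : ℝ} (hL : 0 < L) :
    ∑ k : Fin n, ∑ e ∈ Bk n r k.val, p * (1 - p) * EE p (fun z => Dd e (dk p f k.val) z ^ 2)
      ≤ (r : ℝ) * (L ^ (r - 1) * VV p f + JJ p f / L) := by
  rw [sum_Dd_dk h0 h1 f, sum_a_GG _ (a_inv f hinv)]
  unfold VV JJ
  rw [← Finset.add_sum_erase _ _ (Finset.mem_univ (∅ : Finset (Edge n r)))]
  simp only [Finset.card_empty, Nat.cast_zero, mul_zero, zero_div, zero_add]
  have h2 : ∑ T : Finset (Edge n r), (T.card : ℝ) * coeff p f T ^ 2
      = ∑ T ∈ (univ : Finset (Finset (Edge n r))).erase ∅, (T.card : ℝ) * coeff p f T ^ 2 := by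
    rw [← Finset.add_sum_erase _ _ (Finset.mem_univ (∅ : Finset (Edge n r)))]
    simp
  rw [h2, Finset.mul_sum, Finset.sum_div, ← Finset.sum_add_distrib, Finset.mul_sum]
  refine Finset.sum_le_sum (fun T _ => ?_)
  have h3 := mul_le_mul_of_nonneg_left (weight_le (T := T) hr hL) (sq_nonneg (coeff p f T))
  refine h3.trans (le_of_eq ?_)
  ring

end

/-- All degrees of the complete hypergraph agree. -/
lemma deg_univ_eq (u v : Fin n) : deg (univ : Finset (Edge n r)) u = deg (univ : Finset (Edge n r)) v := by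
  have := deg_map (r := r) (Equiv.swap v u) (univ : Finset (Edge n r)) v
  rw [Finset.map_univ_equiv, Equiv.swap_apply_left] at this
  exact this

lemma sum_deg_univ (k : Fin n) :
    (n : ℝ) * deg (univ : Finset (Edge n r)) k = (r : ℝ) * (Fintype.card (Edge n r) : ℝ) := by
  have h2 := sum_deg (univ : Finset (Edge n r))
  rw [Finset.card_univ] at h2
  rw [← h2]
  have h3 : ∑ u ∈ supp (univ : Finset (Edge n r)), (deg (univ : Finset (Edge n r)) u : ℝ)
      = ∑ u : Fin n, (deg (univ : Finset (Edge n r)) u : ℝ) := by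
    apply Finset.sum_subset (Finset.subset_univ _)
    intro u _ hu
    have : (univ : Finset (Edge n r)).filter (fun e => u ∈ e.1) = ∅ := by
      ext e
      simp only [Finset.mem_filter, Finset.mem_univ, true_and, Finset.notMem_empty, iff_false]
      intro hue
      exact hu (mem_supp.mpr ⟨e, Finset.mem_univ e, hue⟩)
    simp [deg, this]
  rw [h3, Finset.sum_congr rfl (fun u _ => by rw [deg_univ_eq u k])]
  simp

lemma card_Bk_le (k : Fin n) :
    (n : ℝ) * ((Bk n r k.val).card : ℝ) ≤ (r : ℝ) * (Fintype.card (Edge n r) : ℝ) := by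
  rw [← sum_deg_univ k]
  apply mul_le_mul_of_nonneg_left _ (Nat.cast_nonneg n)
  have : (Bk n r k.val).card ≤ deg (univ : Finset (Edge n r)) k := by
    apply Finset.card_le_card
    intro e he
    rw [mem_Bk] at he
    obtain ⟨_, v, hv, hv2⟩ := he
    have : v = k := Fin.ext hv2
    simp only [Finset.mem_filter, Finset.mem_univ, true_and]
    exact this ▸ hv
  exact_mod_cast this

/-- Vertex permutations act transitively on edges. -/
lemma edge_transitive (e e' : Edge n r) : ∃ π : Equiv.Perm (Fin n), edgePerm π e = e' := by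
  classical
  have hcard : Fintype.card {x // x ∈ e.1} = Fintype.card {x // x ∈ e'.1} := by
    simp [e.2, e'.2]
  let φ : {x // x ∈ e.1} ≃ {x // x ∈ e'.1} := Fintype.equivOfCardEq hcard
  refine ⟨φ.extendSubtype, ?_⟩
  apply Subtype.ext
  apply Finset.eq_of_subset_of_card_le
  · intro v hv
    simp only [edgePerm, Equiv.coe_fn_mk, Finset.mem_map, Equiv.coe_toEmbedding] at hv
    obtain ⟨u, hu, rfl⟩ := hv
    exact φ.extendSubtype_mem u hu
  · have : ((edgePerm φ.extendSubtype e).1).card = r := (edgePerm φ.extendSubtype e).2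
    rw [this, e'.2]

section influence
variable {p : ℝ} (h0 : 0 < p) (h1 : p < 1) (f : (Edge n r → Bool) → ℝ)
include h0 h1

/-- All edges have the same influence. -/
lemma Inf_eq (hinv : ∀ (π : Equiv.Perm (Fin n)) x, f (actX (edgePerm π) x) = f x)
    (e e' : Edge n r) :
    EE p (fun z => Dd e f z ^ 2) = EE p (fun z => Dd e' f z ^ 2) := by
  obtain ⟨π, rfl⟩ := edge_transitive e e'
  have hpq := (pq_pos h0 h1).ne'
  apply mul_left_cancel₀ hpq
  rw [pq_Dd_sq h0 h1, pq_Dd_sq h0 h1]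
  rw [← Equiv.sum_comp (Equiv.finsetCongr (edgePerm π : Edge n r ≃ Edge n r))
    (fun T => if edgePerm π e ∈ T then coeff p f T ^ 2 else 0)]
  refine Finset.sum_congr rfl (fun T _ => ?_)
  have e1 : Equiv.finsetCongr (edgePerm π : Edge n r ≃ Edge n r) T
      = T.map (edgePerm π).toEmbedding := rfl
  have e2 : edgePerm π e ∈ T.map (edgePerm π).toEmbedding ↔ e ∈ T := by
    simp
  rw [e1]
  simp only [e2, a_inv f hinv]

lemma JJ_eq : JJ p f = p * (1 - p) * ∑ e : Edge n r, EE p (fun z => Dd e f z ^ 2) := by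
  rw [Finset.mul_sum]
  simp only [pq_Dd_sq h0 h1]
  rw [Finset.sum_comm]
  unfold JJ
  refine Finset.sum_congr rfl (fun T _ => ?_)
  rw [Finset.sum_ite_mem, Finset.univ_inter, Finset.sum_const, nsmul_eq_mul]

/-- `L¹` norm of an increment. -/
lemma EE_abs_dk_le (hn : 0 < n)
    (hinv : ∀ (π : Equiv.Perm (Fin n)) x, f (actX (edgePerm π) x) = f x)
    (hbool : ∀ x, f x = 0 ∨ f x = 1) (k : Fin n) :
    EE p (fun z => |dk p f k.val z|) ≤ 2 * ((r : ℝ) / n) * JJ p f := by
  have hnR : (0 : ℝ) < n := by exact_mod_cast hn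
  have hpq := pq_pos h0 h1
  have hstep := EE_abs_step h0 h1 (Wk n r (k.val + 1))ᶜ (Bk n r k.val)
    (disjoint_compl_Bk n r k.val) f
  rw [← compl_Wk_eq] at hstep
  refine le_trans (le_of_eq ?_) (hstep.trans ?_)
  · rfl
  have habs : ∀ e z, |Dd e f z| = Dd e f z ^ 2 := by
    intro e z
    unfold Dd
    rcases hbool (Function.update z e true) with h2 | h2 <;>
      rcases hbool (Function.update z e false) with h3 | h3 <;> simp [h2, h3]
  simp only [habs]
  rcases (Bk n r k.val).eq_empty_or_nonempty with hB | ⟨e0, he0⟩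
  · rw [hB]
    simp only [Finset.sum_empty, mul_zero]
    exact mul_nonneg (by positivity) (JJ_nonneg p f)
  have hall : ∀ e, EE p (fun z => Dd e f z ^ 2) = EE p (fun z => Dd e0 f z ^ 2) :=
    fun e => Inf_eq h0 h1 f hinv e e0
  rw [JJ_eq h0 h1 f]
  simp only [hall]
  rw [Finset.sum_const, Finset.sum_const, nsmul_eq_mul, nsmul_eq_mul, Finset.card_univ]
  set I0 := EE p (fun z => Dd e0 f z ^ 2) with hI0
  have hI0nn : 0 ≤ I0 := EE_nonneg h0.le h1.le (fun _ => sq_nonneg _)
  have hc := card_Bk_le (r := r) k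
  have hc2 : ((Bk n r k.val).card : ℝ) ≤ (r : ℝ) / n * (Fintype.card (Edge n r) : ℝ) := by
    rw [div_mul_eq_mul_div, le_div_iff₀ hnR]
    linarith
  have hnn : 0 ≤ 2 * (p * (1 - p)) * I0 := by positivity
  have := mul_le_mul_of_nonneg_left hc2 hnn
  calc _ = 2 * (p * (1 - p)) * I0 * ((Bk n r k.val).card : ℝ) := by ring
    _ ≤ _ := this
    _ = _ := by ring

end influence

/-- An elementary sum. -/
lemma sum_inv_sqrt (m : ℕ) : ∑ j ∈ Finset.range m, 1 / Real.sqrt ((j : ℝ) + 1) ≤ 2 * Real.sqrt m := by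
  induction m with
  | zero => simp
  | succ m ih =>
    rw [Finset.sum_range_succ]
    have h1 : 0 < Real.sqrt ((m : ℝ) + 1) := Real.sqrt_pos.mpr (by positivity)
    have h2 : Real.sqrt (m : ℝ) ≤ Real.sqrt ((m : ℝ) + 1) := Real.sqrt_le_sqrt (by linarith)
    have h3 : Real.sqrt ((m : ℝ) + 1) * Real.sqrt ((m : ℝ) + 1) = (m : ℝ) + 1 :=
      Real.mul_self_sqrt (by positivity)
    have h4 : Real.sqrt (m : ℝ) * Real.sqrt (m : ℝ) = (m : ℝ) := Real.mul_self_sqrt (by positivity)
    have h5 : 1 / Real.sqrt ((m : ℝ) + 1) ≤ 2 * (Real.sqrt ((m : ℝ) + 1) - Real.sqrt (m : ℝ)) := by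
      rw [div_le_iff₀ h1]
      nlinarith [Real.sqrt_nonneg (m : ℝ)]
    push_cast
    linarith

lemma sum_fin_inv_sqrt (n : ℕ) :
    ∑ k : Fin n, 1 / Real.sqrt ((n : ℝ) - k.val) ≤ 2 * Real.sqrt n := by
  refine le_trans (le_of_eq ?_) (sum_inv_sqrt n)
  rw [Fin.sum_univ_eq_sum_range (fun k => 1 / Real.sqrt ((n : ℝ) - (k : ℝ))) n]
  rw [← Finset.sum_range_reflect]
  refine Finset.sum_congr rfl (fun j hj => ?_)
  have hj' : j < n := Finset.mem_range.mp hj
  have : ((n - 1 - j : ℕ) : ℝ) = (n : ℝ) - 1 - j := by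
    rw [Nat.cast_sub (by omega), Nat.cast_sub (by omega)]
    simp
  rw [this]
  congr 2
  ring

/-- **The main inequality.** -/
theorem main_ineq {p : ℝ} (h0 : 0 < p) (h1 : p < 1) (hr : 1 ≤ r) (hn : 0 < n)
    (f : (Edge n r → Bool) → ℝ)
    (hinv : ∀ (π : Equiv.Perm (Fin n)) x, f (actX (edgePerm π) x) = f x)
    (hbool : ∀ x, f x = 0 ∨ f x = 1) {Lam L : ℝ} (hLam : 1 ≤ Lam) (hL : 0 < L) :
    Real.log Lam * VV p f
      ≤ lsiC p * ((r : ℝ) * (L ^ (r - 1) * VV p f + JJ p f / L))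
        + Real.log Lam * Real.sqrt Lam * (2 * (r : ℝ) / Real.sqrt n) * JJ p f := by
  have hnR : (0 : ℝ) < n := by exact_mod_cast hn
  have hsn : 0 < Real.sqrt (n : ℝ) := Real.sqrt_pos.mpr hnR
  have hf01 : ∀ x, 0 ≤ f x ∧ f x ≤ 1 := by
    intro x
    rcases hbool x with h | h <;> simp [h]
  have hC := lsiC_pos h0 h1
  have hlog : 0 ≤ Real.log Lam := Real.log_nonneg hLam
  have hsL : 0 ≤ Real.sqrt Lam := Real.sqrt_nonneg _
  -- one step
  have hstep : ∀ k : Fin n, Real.log Lam * EE p (fun z => dk p f k.val z ^ 2)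
      ≤ lsiC p * ∑ e ∈ Bk n r k.val, p * (1 - p) * EE p (fun z => Dd e (dk p f k.val) z ^ 2)
        + Real.log Lam * Real.sqrt Lam * (1 / (2 * Real.sqrt ((n : ℝ) - k.val)))
            * (2 * ((r : ℝ) / n) * JJ p f) := by
    intro k
    have hkn : (0 : ℝ) < (n : ℝ) - k.val := by
      have : (k.val : ℝ) < n := by exact_mod_cast k.isLt
      linarith
    have hs0 : 0 < Real.sqrt ((n : ℝ) - k.val) := Real.sqrt_pos.mpr hkn
    have hs : 0 ≤ 1 / (2 * Real.sqrt ((n : ℝ) - k.val)) := by positivity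
    have hAs : ∀ x, res p (Bk n r k.val) (fun z => dk p f k.val z ^ 2) x
        ≤ (1 / (2 * Real.sqrt ((n : ℝ) - k.val))) ^ 2 := by
      intro x
      have := res_dk_sq_le h0 h1 f hinv hf01 x (k' := k)
      refine this.trans (le_of_eq ?_)
      rw [div_pow, mul_pow, Real.sq_sqrt hkn.le]
      norm_num
    have hb := block_ineq h0 h1 (dk p f k.val) (Bk n r k.val) hLam hs hAs
    have habs := EE_abs_dk_le h0 h1 f hn hinv hbool k
    have hmul : Real.log Lam * Real.sqrt Lam * (1 / (2 * Real.sqrt ((n : ℝ) - k.val)))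
        * EE p (fun z => |dk p f k.val z|)
        ≤ Real.log Lam * Real.sqrt Lam * (1 / (2 * Real.sqrt ((n : ℝ) - k.val)))
          * (2 * ((r : ℝ) / n) * JJ p f) :=
      mul_le_mul_of_nonneg_left habs (by positivity)
    have he : lsiC p * (p * (1 - p)) * ∑ e ∈ Bk n r k.val, EE p (fun z => Dd e (dk p f k.val) z ^ 2)
        = lsiC p * ∑ e ∈ Bk n r k.val, p * (1 - p) * EE p (fun z => Dd e (dk p f k.val) z ^ 2) := by
      rw [mul_assoc, Finset.mul_sum]
    rw [he] at hb
    linarith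
  have hsum := Finset.sum_le_sum (fun k (_ : k ∈ (univ : Finset (Fin n))) => hstep k)
  rw [← Finset.mul_sum, sum_dk_sq h0 h1 f hr, Finset.sum_add_distrib, ← Finset.mul_sum] at hsum
  have h2 := sum_Dd_dk_le h0 h1 f hr hinv hL
  have h3 := mul_le_mul_of_nonneg_left h2 hC.le
  have h4 : ∑ k : Fin n, Real.log Lam * Real.sqrt Lam * (1 / (2 * Real.sqrt ((n : ℝ) - k.val)))
        * (2 * ((r : ℝ) / n) * JJ p f)
      ≤ Real.log Lam * Real.sqrt Lam * (2 * (r : ℝ) / Real.sqrt n) * JJ p f := by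
    have e1 : ∀ k : Fin n, Real.log Lam * Real.sqrt Lam * (1 / (2 * Real.sqrt ((n : ℝ) - k.val)))
        * (2 * ((r : ℝ) / n) * JJ p f)
        = (Real.log Lam * Real.sqrt Lam * ((r : ℝ) / n) * JJ p f)
          * (1 / Real.sqrt ((n : ℝ) - k.val)) := by
      intro k
      rw [one_div, mul_inv, one_div]
      ring
    simp only [e1]
    rw [← Finset.mul_sum]
    have hnn : 0 ≤ Real.log Lam * Real.sqrt Lam * ((r : ℝ) / n) * JJ p f := by
      have := JJ_nonneg p f
      positivity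
    have h5 := mul_le_mul_of_nonneg_left (sum_fin_inv_sqrt n) hnn
    refine h5.trans (le_of_eq ?_)
    have h6 : Real.sqrt n ^ 2 = n := Real.sq_sqrt hnR.le
    field_simp
    rw [h6]
    ring
  linarith

end Vale.Agent.Lib.P063
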