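import Vale.Agent.Lib.P063.LSI

/-!
# One martingale step: `L¹` bound.
-/

open Finset BigOperators

set_option linter.unusedSectionVars false

namespace Vale.Agent.Lib.P063

variable {ι : Type*} [Fintype ι] [DecidableEq ι]

lemma abs_res_le {p : ℝ} (h0 : 0 ≤ p) (h1 : p ≤ 1) (B : Finset ι) (g : (ι → Bool) → ℝ)
    (x : ι → Bool) : |res p B g x| ≤ res p B (fun z => |g z|) x := by
  unfold res
  refine (Finset.abs_sum_le_sum_abs _ _).trans (le_of_eq ?_)
  refine Finset.sum_congr rfl (fun y _ => ?_)
  rw [abs_mul, abs_of_nonneg (wt_nonneg h0 h1 y)]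

lemma EE_abs_res_le {p : ℝ} (h0 : 0 ≤ p) (h1 : p ≤ 1) (B : Finset ι) (g : (ι → Bool) → ℝ) :
    EE p (fun x => |res p B g x|) ≤ EE p (fun x => |g x|) := by
  have := EE_mono h0 h1 (abs_res_le h0 h1 B g)
  rwa [EE_res] at this

/-- Discrete derivatives commute with resampling of other coordinates. -/
lemma Dd_res {p : ℝ} {F : Finset ι} {e : ι} (he : e ∉ F) (f : (ι → Bool) → ℝ) :
    Dd e (res p F f) = res p F (Dd e f) := by
  ext x
  simp only [Dd, res, mrg_update_not_mem he, mul_sub, Finset.sum_sub_distrib]

lemma Dd_eq_zero_of_indep {e : ι} {g : (ι → Bool) → ℝ} {F : Finset ι} (he : e ∈ F)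
    (hg : IndepOf F g) (x : ι → Bool) : Dd e g x = 0 := by
  have : g (Function.update x e true) = g (Function.update x e false) := by
    apply hg
    intro e' he'
    have : e' ≠ e := fun h => he' (h ▸ he)
    simp [Function.update_of_ne this]
  simp [Dd, this]

/-- The `L¹` path inequality. -/
theorem l1_path {p : ℝ} (h0 : 0 < p) (h1 : p < 1) (g : (ι → Bool) → ℝ) (B : Finset ι) :
    EE p (fun x => |g x - res p B g x|)
      ≤ 2 * (p * (1 - p)) * ∑ e ∈ B, EE p (fun x => |Dd e g x|) := by
  induction B using Finset.induction_on with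
  | empty =>
    simp [res_empty, EE_const]
  | insert e B he ih =>
    have hins : insert e B = ({e} : Finset ι) ∪ B := by
      ext; simp
    have hres : res p (insert e B) g = res p {e} (res p B g) := by
      rw [hins, res_res]
    have hpt : ∀ x, |g x - res p (insert e B) g x|
        ≤ |g x - res p {e} g x| + |res p {e} (fun z => g z - res p B g z) x| := by
      intro x
      have e1 : g x - res p (insert e B) g x
          = (g x - res p {e} g x) + res p {e} (fun z => g z - res p B g z) x := by
        rw [res_sub, hres]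
        ring
      rw [e1]
      exact abs_add_le _ _
    have h2 := EE_mono h0.le h1.le hpt
    rw [EE_add, EE_abs_sub_res h0 h1] at h2
    have h3 := EE_abs_res_le h0.le h1.le {e} (fun z => g z - res p B g z)
    rw [Finset.sum_insert he, mul_add]
    linarith

/-- The `L¹` norm of a martingale increment. -/
theorem EE_abs_step {p : ℝ} (h0 : 0 < p) (h1 : p < 1) (F B : Finset ι) (hFB : Disjoint F B)
    (f : (ι → Bool) → ℝ) :
    EE p (fun z => |res p F f z - res p (F ∪ B) f z|)
      ≤ 2 * (p * (1 - p)) * ∑ e ∈ B, EE p (fun x => |Dd e f x|) := by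
  set g : (ι → Bool) → ℝ := fun z => res p F f z - res p (F ∪ B) f z with hg
  have hresg : res p B g = fun _ => 0 := by
    rw [hg, res_sub, res_res, res_res]
    ext x
    have e1 : B ∪ F = F ∪ B := Finset.union_comm _ _
    have e2 : B ∪ (F ∪ B) = F ∪ B := by
      ext; simp only [Finset.mem_union]; tauto
    rw [e1, e2]
    ring
  have h2 := l1_path h0 h1 g B
  have h3 : (fun x => |g x - res p B g x|) = fun x => |g x| := by
    ext x
    rw [hresg]
    simp
  rw [h3] at h2
  refine h2.trans ?_
  apply mul_le_mul_of_nonneg_left _ (by have := pq_pos h0 h1; linarith)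
  refine Finset.sum_le_sum (fun e he => ?_)
  have heF : e ∉ F := fun h => (Finset.disjoint_left.mp hFB h) he
  have hD : ∀ x, Dd e g x = res p F (Dd e f) x := by
    intro x
    have e1 : Dd e g x = Dd e (res p F f) x - Dd e (res p (F ∪ B) f) x := by
      simp only [Dd, hg]
      ring
    rw [e1, Dd_res heF, Dd_eq_zero_of_indep (F := F ∪ B) (Finset.mem_union_right _ he)
      (indepOf_res p _ f) x, sub_zero]
  simp only [hD]
  exact EE_abs_res_le h0.le h1.le F _

end Vale.Agent.Lib.P063
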