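import Vale.Agent.Lib.P063.Main

/-!
# Numerical lemmas for the final assembly.
-/

open Finset BigOperators

set_option linter.unusedSectionVars false

namespace Vale.Agent.Lib.P063

/-- `t (1 + log (1/t))^2 ≤ 4` in the form needed. -/
lemma pq_lsiC_sq {p : ℝ} (h0 : 0 < p) (h1 : p < 1) : p * (1 - p) * lsiC p ^ 2 ≤ 4096 := by
  set t := p * (1 - p) with ht
  have htpos : 0 < t := pq_pos h0 h1
  set y := Real.sqrt t with hy
  have hypos : 0 < y := Real.sqrt_pos.mpr htpos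
  have hy2 : y ^ 2 = t := Real.sq_sqrt htpos.le
  set Lg := Real.log (1 / t) with hLg
  have hLnn : 0 ≤ Lg := log_pq_nonneg h0 h1
  have e1 : Lg = 2 * Real.log (1 / y) := by
    rw [hLg, ← hy2]
    rw [show (1 : ℝ) / y ^ 2 = (1 / y) ^ 2 by rw [div_pow, one_pow], Real.log_pow]
    norm_num
  have e2 : Real.log (1 / y) ≤ 1 / y - 1 := Real.log_le_sub_one_of_pos (by positivity)
  have e3 : 1 + Lg ≤ 2 / y := by
    have : 2 / y = 2 * (1 / y) := by ring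
    rw [this, e1]
    linarith
  have e4 : (1 + Lg) ^ 2 ≤ (2 / y) ^ 2 := pow_le_pow_left₀ (by linarith) e3 2
  have e5 : t * (2 / y) ^ 2 = 4 := by
    rw [← hy2]
    field_simp
    norm_num
  have e6 : t * (1 + Lg) ^ 2 ≤ 4 := by
    have := mul_le_mul_of_nonneg_left e4 htpos.le
    linarith
  have e7 : lsiC p = 32 * (1 + Lg) := rfl
  rw [e7]
  nlinarith

/-- `(log n)^α ≤ 64 n^{1/4}`. -/
lemma log_rpow_le {x α : ℝ} (hx : 1 ≤ x) (hl : 0 < Real.log x) (hα0 : 0 ≤ α) (hα : α ≤ 2) :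
    Real.log x ^ α ≤ 64 * Real.sqrt (Real.sqrt x) := by
  have hx0 : 0 ≤ x := by linarith
  have hs1 : 1 ≤ Real.sqrt x := Real.one_le_sqrt.mpr hx
  have hs2 : 1 ≤ Real.sqrt (Real.sqrt x) := Real.one_le_sqrt.mpr hs1
  by_cases hc : Real.log x ≤ 1
  · have : Real.log x ^ α ≤ 1 := Real.rpow_le_one hl.le hc hα0
    linarith
  · push Not at hc
    have h2 : Real.log x ^ α ≤ Real.log x ^ (2 : ℝ) :=
      Real.rpow_le_rpow_of_exponent_le hc.le hα
    have h3 : Real.log x ^ (2 : ℝ) = Real.log x ^ 2 := Real.rpow_two _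
    rw [h3] at h2
    set y := Real.sqrt (Real.sqrt (Real.sqrt x)) with hy
    have hy1 : 1 ≤ y := Real.one_le_sqrt.mpr hs2
    have hy2 : y ^ 2 = Real.sqrt (Real.sqrt x) := Real.sq_sqrt (by linarith)
    have hlog : Real.log y = Real.log x / 8 := by
      rw [hy, Real.log_sqrt (by positivity), Real.log_sqrt (by positivity), Real.log_sqrt hx0]
      ring
    have h4 : Real.log y ≤ y - 1 := Real.log_le_sub_one_of_pos (by linarith)
    have h5 : Real.log x ≤ 8 * y := by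
      have : Real.log x = 8 * Real.log y := by rw [hlog]; ring
      rw [this]
      linarith
    have h6 : Real.log x ^ 2 ≤ (8 * y) ^ 2 := pow_le_pow_left₀ hl.le h5 2
    have h7 : (8 * y) ^ 2 = 64 * y ^ 2 := by ring
    rw [h7, hy2] at h6
    linarith

/-- Abstract form of the last algebraic step of the main inequality. -/
lemma from_main {V J ℓ c rr L Lm N4 : ℝ} (hJ : 0 ≤ J) (hℓ : 0 < ℓ) (hc : 0 < c)
    (hrr : 0 < rr) (hL : 0 < L) (hLm : 0 < Lm) (hN4 : 0 < N4) (hchoice : c * rr * Lm = ℓ / 4)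
    (hmain : ℓ / 2 * V ≤ c * (rr * (Lm * V + J / L)) + ℓ / 2 * N4 * (2 * rr / N4 ^ 2) * J) :
    V ≤ J * (1 / (Lm * L) + 4 * rr / N4) := by
  have e1 : c * (rr * (Lm * V + J / L)) = ℓ / 4 * V + ℓ / 4 * (J * (1 / (Lm * L))) := by
    have : c * rr = ℓ / 4 / Lm := by
      rw [eq_div_iff hLm.ne']
      exact hchoice
    have e2 : c * (rr * (Lm * V + J / L)) = (c * rr) * (Lm * V + J / L) := by ring
    rw [e2, this]
    field_simp
  have e3 : ℓ / 2 * N4 * (2 * rr / N4 ^ 2) * J = ℓ / 4 * (J * (4 * rr / N4)) := by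
    field_simp
  rw [e1, e3] at hmain
  have h2 : ℓ / 4 * V ≤ ℓ / 4 * (J * (1 / (Lm * L) + 4 * rr / N4)) := by
    have : ℓ / 4 * (J * (1 / (Lm * L) + 4 * rr / N4))
        = ℓ / 4 * (J * (1 / (Lm * L))) + ℓ / 4 * (J * (4 * rr / N4)) := by ring
    rw [this]
    linarith
  exact le_of_mul_le_mul_left h2 (by positivity)

/-- The power computation. -/
lemma power_choice {X : ℝ} (hX : 0 < X) {m : ℕ} (hm : m ≠ 0) :
    ∃ L : ℝ, 0 < L ∧ L ^ m = X ∧ 1 / (L ^ m * L) = X ^ (-(((m : ℝ) + 1) / m)) := by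
  refine ⟨X ^ ((m : ℝ)⁻¹), Real.rpow_pos_of_pos hX _, Real.rpow_inv_natCast_pow hX.le hm, ?_⟩
  rw [Real.rpow_inv_natCast_pow hX.le hm]
  have hmR : (m : ℝ) ≠ 0 := by exact_mod_cast hm
  have e1 : -(((m : ℝ) + 1) / m) = -(1 + (m : ℝ)⁻¹) := by
    field_simp
  rw [e1, Real.rpow_neg hX.le, Real.rpow_add hX, Real.rpow_one, one_div]

/-- Final numeric estimate. -/
lemma numeric_final {p ℓ N4 α : ℝ} {r : ℕ} (h0 : 0 < p) (h1 : p < 1) (hr : 2 ≤ r)
    (hℓ : 0 < ℓ) (hN4 : 0 < N4) (hα2 : α ≤ 2) (hN : ℓ ^ α ≤ 64 * N4) :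
    p * (1 - p) * ((ℓ / (4 * lsiC p * r)) ^ (-α) + 4 * (r : ℝ) / N4)
      ≤ (65536 * (r : ℝ) ^ 2 + 64 * r) * ℓ ^ (-α) := by
  have hc := lsiC_pos h0 h1
  have hc1 : 1 ≤ lsiC p := by
    have := log_pq_nonneg h0 h1
    unfold lsiC
    linarith
  have hrR : (2 : ℝ) ≤ r := by exact_mod_cast hr
  have hpq := pq_pos h0 h1
  have hpq4 := pq_le_quarter p
  set c := lsiC p with hcdef
  have hbase : 1 ≤ 4 * c * r := by nlinarith
  have e1 : (ℓ / (4 * c * r)) ^ (-α) = (4 * c * r) ^ α * ℓ ^ (-α) := by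
    rw [Real.rpow_neg (by positivity), Real.div_rpow hℓ.le (by positivity), Real.rpow_neg hℓ.le]
    have h2 : (0 : ℝ) < ℓ ^ α := Real.rpow_pos_of_pos hℓ _
    have h3 : (0 : ℝ) < (4 * c * r) ^ α := Real.rpow_pos_of_pos (by positivity) _
    field_simp
  have e2 : (4 * c * r) ^ α ≤ (4 * c * r) ^ 2 := by
    have := Real.rpow_le_rpow_of_exponent_le hbase hα2
    rwa [Real.rpow_two] at this
  have hlpos : 0 < ℓ ^ (-α) := Real.rpow_pos_of_pos hℓ _
  have e3 : p * (1 - p) * (ℓ / (4 * c * r)) ^ (-α) ≤ 65536 * (r : ℝ) ^ 2 * ℓ ^ (-α) := by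
    rw [e1]
    have h3 : p * (1 - p) * (4 * c * r) ^ α ≤ 65536 * (r : ℝ) ^ 2 := by
      have h4 := mul_le_mul_of_nonneg_left e2 hpq.le
      have h5 := pq_lsiC_sq h0 h1
      have h6 : p * (1 - p) * (4 * c * r) ^ 2 = (p * (1 - p) * c ^ 2) * (16 * (r : ℝ) ^ 2) := by ring
      have h7 : (p * (1 - p) * c ^ 2) * (16 * (r : ℝ) ^ 2) ≤ 4096 * (16 * (r : ℝ) ^ 2) :=
        mul_le_mul_of_nonneg_right h5 (by positivity)
      linarith
    calc _ = (p * (1 - p) * (4 * c * r) ^ α) * ℓ ^ (-α) := by ring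
      _ ≤ _ := mul_le_mul_of_nonneg_right h3 hlpos.le
  have e4 : p * (1 - p) * (4 * (r : ℝ) / N4) ≤ 64 * (r : ℝ) * ℓ ^ (-α) := by
    have h2 : (0 : ℝ) < ℓ ^ α := Real.rpow_pos_of_pos hℓ _
    have h3 : 1 / N4 ≤ 64 * ℓ ^ (-α) := by
      rw [Real.rpow_neg hℓ.le, div_le_iff₀ hN4]
      have : 64 * (ℓ ^ α)⁻¹ * N4 = (64 * N4) / ℓ ^ α := by
        field_simp
      rw [this, le_div_iff₀ h2]
      linarith
    have h4 : p * (1 - p) * (4 * (r : ℝ)) ≤ r := by nlinarith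
    have h5 : 0 ≤ 1 / N4 := by positivity
    calc _ = (p * (1 - p) * (4 * (r : ℝ))) * (1 / N4) := by ring
      _ ≤ r * (1 / N4) := mul_le_mul_of_nonneg_right h4 h5
      _ ≤ r * (64 * ℓ ^ (-α)) := mul_le_mul_of_nonneg_left h3 (by positivity)
      _ = _ := by ring
  rw [mul_add, add_mul]
  linarith

end Vale.Agent.Lib.P063
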