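import Vale.Agent.Lib.P063.Count

/-!
# The weight `deg_T(top T)` and its average over relabellings.
-/

open Finset BigOperators

set_option linter.unusedSectionVars false

namespace Vale.Agent.Lib.P063

variable {n r : ℕ}

/-- the vertex support of a set of edges -/
def supp (T : Finset (Edge n r)) : Finset (Fin n) := T.biUnion (fun e => e.1)

/-- the degree of a vertex in a set of edges -/
def deg (T : Finset (Edge n r)) (u : Fin n) : ℕ := (T.filter (fun e => u ∈ e.1)).card

lemma mem_supp {T : Finset (Edge n r)} {v : Fin n} : v ∈ supp T ↔ ∃ e ∈ T, v ∈ e.1 := by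
  simp [supp]

open Classical in
/-- the degree of the top vertex of `T` -/
noncomputable def GG (T : Finset (Edge n r)) : ℝ :=
  ∑ u ∈ supp T, if IsTop (1 : Equiv.Perm (Fin n)) (supp T) u then (deg T u : ℝ) else 0

lemma subset_Wk_iff {T : Finset (Edge n r)} {k : ℕ} :
    T ⊆ Wk n r k ↔ ∀ v ∈ supp T, v.val < k := by
  constructor
  · intro h v hv
    rw [mem_supp] at hv
    obtain ⟨e, he, hve⟩ := hv
    exact mem_Wk.mp (h he) v hve
  · intro h e he
    rw [mem_Wk]
    intro v hv
    exact h v (mem_supp.mpr ⟨e, he, hv⟩)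

open Classical in
lemma term_eq (T : Finset (Edge n r)) (k : Fin n) :
    (ind (k.val + 1) T - ind k.val T) * (((Bk n r k.val).filter (fun e => e ∈ T)).card : ℝ)
      = if k ∈ supp T ∧ IsTop (1 : Equiv.Perm (Fin n)) (supp T) k then (deg T k : ℝ) else 0 := by
  have hP : T ⊆ Wk n r (k.val + 1) ↔ IsTop (1 : Equiv.Perm (Fin n)) (supp T) k := by
    rw [subset_Wk_iff]
    simp only [IsTop, Equiv.Perm.coe_one, id_eq]
    constructor
    · intro h u hu
      exact Nat.lt_succ_iff.mp (h u hu)
    · intro h u hu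
      exact Nat.lt_succ_iff.mpr (h u hu)
  by_cases h2 : IsTop (1 : Equiv.Perm (Fin n)) (supp T) k
  · have h3 : T ⊆ Wk n r (k.val + 1) := hP.mpr h2
    by_cases h4 : k ∈ supp T
    · have h5 : ¬ T ⊆ Wk n r k.val := by
        rw [subset_Wk_iff]
        intro h6
        exact lt_irrefl _ (h6 k h4)
      have hcard : (Bk n r k.val).filter (fun e => e ∈ T) = T.filter (fun e => k ∈ e.1) := by
        ext e
        simp only [Finset.mem_filter]
        rw [mem_Bk]
        constructor
        · rintro ⟨⟨_, v, hv, hv2⟩, heT⟩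
          have : v = k := Fin.ext hv2
          exact ⟨heT, this ▸ hv⟩
        · rintro ⟨heT, hk⟩
          refine ⟨⟨?_, k, hk, rfl⟩, heT⟩
          intro v hv
          have := mem_Wk.mp (h3 heT) v hv
          omega
      simp only [ind, h3, h5, if_true, if_false, h2, h4, and_self, hcard, deg]
      ring
    · have h5 : T ⊆ Wk n r k.val := by
        rw [subset_Wk_iff]
        intro v hv
        have h6 := h2 v hv
        simp only [Equiv.Perm.coe_one, id_eq] at h6
        have h7 : v ≠ k := fun h => h4 (h ▸ hv)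
        have h8 : v.val ≠ k.val := fun h => h7 (Fin.ext h)
        have h9 : v.val ≤ k.val := h6
        omega
      simp [ind, h3, h5, h4]
  · have h3 : ¬ T ⊆ Wk n r (k.val + 1) := fun h => h2 (hP.mp h)
    have h5 : ¬ T ⊆ Wk n r k.val := fun h => h3 (h.trans (Wk_mono (Nat.le_succ _)))
    simp [ind, h3, h5, h2]

open Classical in
/-- `GG` as a sum over all vertices -/
lemma sum_term_eq (T : Finset (Edge n r)) :
    ∑ k : Fin n, (ind (k.val + 1) T - ind k.val T)
        * (((Bk n r k.val).filter (fun e => e ∈ T)).card : ℝ) = GG T := by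
  simp only [term_eq]
  unfold GG
  rw [← Finset.sum_filter_add_sum_filter_not (univ : Finset (Fin n)) (fun k => k ∈ supp T)]
  have h1 : ∑ k ∈ (univ : Finset (Fin n)) with ¬ k ∈ supp T,
      (if k ∈ supp T ∧ IsTop (1 : Equiv.Perm (Fin n)) (supp T) k then (deg T k : ℝ) else 0) = 0 := by
    refine Finset.sum_eq_zero (fun k hk => ?_)
    have : k ∉ supp T := (Finset.mem_filter.mp hk).2
    simp [this]
  rw [h1, add_zero]
  have h2 : (univ : Finset (Fin n)).filter (fun k => k ∈ supp T) = supp T := by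
    ext k; simp
  rw [h2]
  refine Finset.sum_congr rfl (fun k hk => ?_)
  simp [hk]

lemma supp_map (π : Equiv.Perm (Fin n)) (T : Finset (Edge n r)) :
    supp (T.map (edgePerm π).toEmbedding) = (supp T).map π.toEmbedding := by
  ext v
  simp only [mem_supp, Finset.mem_map, Equiv.coe_toEmbedding]
  constructor
  · rintro ⟨e, ⟨e0, he0, rfl⟩, hv⟩
    rw [mem_edgePerm] at hv
    exact ⟨π.symm v, ⟨e0, he0, hv⟩, by simp⟩
  · rintro ⟨u, ⟨e, he, hu⟩, rfl⟩
    exact ⟨edgePerm π e, ⟨e, he, rfl⟩, mem_edgePerm'.mpr hu⟩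

lemma deg_map (π : Equiv.Perm (Fin n)) (T : Finset (Edge n r)) (u : Fin n) :
    deg (T.map (edgePerm π).toEmbedding) (π u) = deg T u := by
  unfold deg
  rw [Finset.filter_map, Finset.card_map]
  congr 1
  ext e
  simp [mem_edgePerm']

open Classical in
lemma GG_map (π : Equiv.Perm (Fin n)) (T : Finset (Edge n r)) :
    GG (T.map (edgePerm π).toEmbedding)
      = ∑ u ∈ supp T, if IsTop π (supp T) u then (deg T u : ℝ) else 0 := by
  unfold GG
  rw [supp_map, Finset.sum_map]
  refine Finset.sum_congr rfl (fun u _ => ?_)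
  simp only [Equiv.coe_toEmbedding, deg_map]
  have : IsTop (1 : Equiv.Perm (Fin n)) ((supp T).map π.toEmbedding) (π u) ↔ IsTop π (supp T) u := by
    simp only [IsTop, Equiv.Perm.coe_one, id_eq, Finset.forall_mem_map, Equiv.coe_toEmbedding]
  simp only [this]

lemma sum_deg (T : Finset (Edge n r)) :
    ∑ u ∈ supp T, (deg T u : ℝ) = (r : ℝ) * T.card := by
  classical
  have h1 : ∀ u, (deg T u : ℝ) = ∑ e ∈ T, if u ∈ e.1 then (1 : ℝ) else 0 := by
    intro u
    unfold deg
    rw [Finset.card_filter]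
    push_cast
    rfl
  simp only [h1]
  rw [Finset.sum_comm]
  have h2 : ∀ e ∈ T, ∑ u ∈ supp T, (if u ∈ e.1 then (1 : ℝ) else 0) = r := by
    intro e he
    rw [Finset.sum_ite_mem, Finset.sum_const, nsmul_eq_mul, mul_one]
    have : supp T ∩ e.1 = e.1 := by
      apply Finset.inter_eq_right.mpr
      intro v hv
      exact mem_supp.mpr ⟨e, he, hv⟩
    rw [this, e.2]
  rw [Finset.sum_congr rfl h2, Finset.sum_const, nsmul_eq_mul]
  ring

/-- The average of `GG` over all relabellings. -/
theorem sum_GG_map (T : Finset (Edge n r)) :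
    ∑ π : Equiv.Perm (Fin n), GG (T.map (edgePerm π).toEmbedding)
      = (Nat.factorial n : ℝ) / (supp T).card * ((r : ℝ) * T.card) := by
  classical
  simp only [GG_map]
  rw [sum_perm_top (supp T) (fun u => (deg T u : ℝ)), sum_deg]

/-- Reindexing: invariant weights `a`. -/
theorem sum_a_GG (a : Finset (Edge n r) → ℝ)
    (ha : ∀ (π : Equiv.Perm (Fin n)) T, a (T.map (edgePerm π).toEmbedding) = a T) :
    ∑ T, a T * GG T = ∑ T : Finset (Edge n r), a T * ((r : ℝ) * T.card / (supp T).card) := by
  have hfac : (Nat.factorial n : ℝ) ≠ 0 := by exact_mod_cast Nat.factorial_ne_zero n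
  have hcard : (Fintype.card (Equiv.Perm (Fin n)) : ℝ) = Nat.factorial n := by
    rw [Fintype.card_perm]; simp
  have h1 : ∀ π : Equiv.Perm (Fin n), ∑ T, a T * GG T
      = ∑ T, a T * GG (T.map (edgePerm π).toEmbedding) := by
    intro π
    rw [← Equiv.sum_comp (Equiv.finsetCongr (edgePerm π : Edge n r ≃ Edge n r))]
    refine Finset.sum_congr rfl (fun T _ => ?_)
    have : Equiv.finsetCongr (edgePerm π : Edge n r ≃ Edge n r) T
        = T.map (edgePerm π).toEmbedding := rfl
    rw [this, ha]
  have h2 : (Nat.factorial n : ℝ) * ∑ T, a T * GG T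
      = ∑ π : Equiv.Perm (Fin n), ∑ T, a T * GG (T.map (edgePerm π).toEmbedding) := by
    rw [Finset.sum_congr rfl (fun π _ => (h1 π).symm), Finset.sum_const, nsmul_eq_mul]
    congr 1
    exact hcard.symm
  rw [Finset.sum_comm] at h2
  simp only [← Finset.mul_sum, sum_GG_map] at h2
  apply mul_left_cancel₀ hfac
  rw [h2, Finset.mul_sum]
  refine Finset.sum_congr rfl (fun T _ => ?_)
  ring

/-- A set of `r`-edges on `v` vertices has at most `v ^ r` elements. -/
lemma card_le_supp_pow (T : Finset (Edge n r)) : T.card ≤ (supp T).card ^ r := by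
  have h1 : (T.image (fun e => e.1)).card = T.card :=
    Finset.card_image_of_injective _ Subtype.val_injective
  rw [← h1]
  refine le_trans ?_ (Nat.choose_le_pow _ _)
  rw [← Finset.card_powersetCard]
  apply Finset.card_le_card
  intro s hs
  rw [Finset.mem_image] at hs
  obtain ⟨e, he, rfl⟩ := hs
  rw [Finset.mem_powersetCard]
  refine ⟨fun v hv => mem_supp.mpr ⟨e, he, hv⟩, e.2⟩

/-- The weight bound. -/
lemma weight_le {T : Finset (Edge n r)} (hr : 1 ≤ r) {L : ℝ} (hL : 0 < L) :
    (r : ℝ) * T.card / (supp T).card ≤ (r : ℝ) * (L ^ (r - 1) + T.card / L) := by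
  rw [mul_div_assoc]
  apply mul_le_mul_of_nonneg_left _ (Nat.cast_nonneg r)
  set v : ℝ := ((supp T).card : ℝ) with hv
  set t : ℝ := (T.card : ℝ) with ht
  have hvnn : 0 ≤ v := Nat.cast_nonneg _
  have htnn : 0 ≤ t := Nat.cast_nonneg _
  have hLp : 0 ≤ L ^ (r - 1) := by positivity
  rcases hvnn.eq_or_lt with h0 | hvpos
  · rw [← h0]
    simp
    positivity
  by_cases hc : L ≤ v
  · have : t / v ≤ t / L := div_le_div_of_nonneg_left htnn hL hc
    have h2 : 0 ≤ t / L := by positivity
    linarith
  · push Not at hc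
    have h2 : t ≤ v ^ r := by
      have := card_le_supp_pow T
      rw [ht, hv]
      exact_mod_cast this
    have h3 : t / v ≤ v ^ (r - 1) := by
      rw [div_le_iff₀ hvpos]
      have : v ^ (r - 1) * v = v ^ r := by
        rw [← pow_succ]
        congr 1
        omega
      rw [this]
      exact h2
    have h4 : v ^ (r - 1) ≤ L ^ (r - 1) := pow_le_pow_left₀ hvnn hc.le _
    have h5 : 0 ≤ t / L := by positivity
    linarith

end Vale.Agent.Lib.P063
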