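import Vale.Agent.Lib.P063.Numeric

/-!
# Russo's formula, thresholds and the width bound.
-/

open Finset BigOperators

set_option linter.unusedSectionVars false

namespace Vale.Agent.Lib.P063

section Russo
variable {ι : Type*} [Fintype ι] [DecidableEq ι]

lemma hasDeriv_w1 (p : ℝ) (b : Bool) :
    HasDerivAt (fun t => w1 t b) (if b then (1 : ℝ) else -1) p := by
  cases b
  · have e : (fun t => w1 t false) = fun t => 1 - t := by
      ext t; simp
    rw [e]
    simpa using (hasDerivAt_id' p).const_sub (1 : ℝ)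
  · have e : (fun t => w1 t true) = fun t => t := by
      ext t; simp
    rw [e]
    simpa using hasDerivAt_id' p

lemma w1_deriv_eq {p : ℝ} (h0 : 0 < p) (h1 : p < 1) (b : Bool) :
    (if b then (1 : ℝ) else -1) = w1 p b * (zc p b / (p * (1 - p))) := by
  have hq : (1 - p) ≠ 0 := by linarith
  have hp : p ≠ 0 := h0.ne'
  cases b <;> simp [w1, zc] <;> field_simp

lemma hasDeriv_wt {p : ℝ} (h0 : 0 < p) (h1 : p < 1) (x : ι → Bool) :
    HasDerivAt (fun t => wt t x) (wt p x * ∑ e, zc p (x e) / (p * (1 - p))) p := by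
  have := HasDerivAt.fun_finsetProd (u := (univ : Finset ι)) (fun e _ => hasDeriv_w1 p (x e))
  refine this.congr_deriv ?_
  rw [Finset.mul_sum]
  refine Finset.sum_congr rfl (fun e _ => ?_)
  rw [smul_eq_mul, w1_deriv_eq h0 h1, wt, ← Finset.mul_prod_erase univ _ (Finset.mem_univ e)]
  ring

lemma EE_zc_mul {p : ℝ} (e : ι) (g : (ι → Bool) → ℝ) :
    EE p (fun x => zc p (x e) * g x) = p * (1 - p) * EE p (Dd e g) := by
  have hs : (fun x => zc p (x e) * g x)
      = fun x => zc p (x e) * res p {e} g x + zc p (x e) ^ 2 * Dd e g x := by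
    ext x
    have := sub_res_singleton p e g x
    rw [pow_two, mul_assoc, ← this]
    ring
  rw [hs, EE_add, EE_coord_mul p e (fun b => zc p b) (indepOf_res p {e} g),
    EE_coord_mul p e (fun b => zc p b ^ 2) (indepOf_Dd e g)]
  simp only [zc, if_true, Bool.false_eq_true, if_false]
  ring

/-- Russo's formula. -/
lemma hasDeriv_EE {p : ℝ} (h0 : 0 < p) (h1 : p < 1) (g : (ι → Bool) → ℝ) :
    HasDerivAt (fun t => EE t g) (∑ e, EE p (Dd e g)) p := by
  have hpq := (pq_pos h0 h1).ne'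
  have := HasDerivAt.fun_sum (u := (univ : Finset (ι → Bool)))
    (fun x _ => (hasDeriv_wt h0 h1 x).mul_const (g x))
  refine this.congr_deriv ?_
  have e1 : ∀ e, EE p (Dd e g) = EE p (fun x => zc p (x e) * g x) / (p * (1 - p)) := by
    intro e
    rw [EE_zc_mul, mul_div_cancel_left₀ _ hpq]
  simp only [e1]
  simp only [EE]
  simp only [Finset.mul_sum, Finset.sum_mul, Finset.sum_div]
  rw [Finset.sum_comm]
  refine Finset.sum_congr rfl (fun e _ => Finset.sum_congr rfl (fun x _ => ?_))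
  ring

lemma continuous_w1 (b : Bool) : Continuous (fun t => w1 t b) := by
  cases b
  · have e : (fun t => w1 t false) = fun t => 1 - t := by
      ext t; simp
    rw [e]
    fun_prop
  · have e : (fun t => w1 t true) = fun t => t := by
      ext t; simp
    rw [e]
    fun_prop

lemma continuous_EE (g : (ι → Bool) → ℝ) : Continuous (fun t => EE t g) := by
  unfold EE wt
  exact continuous_finsetSum _ (fun x _ =>
    (continuous_finsetProd _ (fun e _ => continuous_w1 (x e))).mul continuous_const)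

end Russo

/-- Threshold lemma. -/
lemma thr_spec {μ : ℝ → ℝ} (hc : Continuous μ) (h0 : μ 0 = 0) (h1 : μ 1 = 1) {a : ℝ}
    (ha0 : 0 < a) (ha1 : a < 1) :
    sInf {p : ℝ | p ∈ Set.Icc (0 : ℝ) 1 ∧ a ≤ μ p} ∈ Set.Icc (0 : ℝ) 1
      ∧ μ (sInf {p : ℝ | p ∈ Set.Icc (0 : ℝ) 1 ∧ a ≤ μ p}) = a := by
  set S : Set ℝ := {p : ℝ | p ∈ Set.Icc (0 : ℝ) 1 ∧ a ≤ μ p} with hS
  have hclosed : IsClosed S := by
    have : S = Set.Icc (0 : ℝ) 1 ∩ {p | a ≤ μ p} := rfl
    rw [this]
    exact isClosed_Icc.inter (isClosed_le continuous_const hc)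
  have hne : S.Nonempty := ⟨1, ⟨by norm_num, by norm_num⟩, by rw [h1]; exact ha1.le⟩
  have hbd : BddBelow S := ⟨0, fun p hp => hp.1.1⟩
  have hmem : sInf S ∈ S := hclosed.csInf_mem hne hbd
  refine ⟨hmem.1, le_antisymm ?_ hmem.2⟩
  have hm0 : 0 ≤ sInf S := hmem.1.1
  have hivt := intermediate_value_Icc hm0 (hc.continuousOn (s := Set.Icc 0 (sInf S)))
  have ha : a ∈ Set.Icc (μ 0) (μ (sInf S)) := ⟨by rw [h0]; exact ha0.le, hmem.2⟩
  obtain ⟨c, hc1, hc2⟩ := hivt ha
  have hcS : c ∈ S := ⟨⟨hc1.1, hc1.2.trans hmem.1.2⟩, hc2.ge⟩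
  have hle : sInf S ≤ c := csInf_le hbd hcS
  have : c = sInf S := le_antisymm hc1.2 hle
  rw [← this, hc2]

section Property
variable {n r : ℕ} (P : Set (Edge n r → Bool))

open Classical in
/-- indicator function of a property -/
noncomputable def indP (x : Edge n r → Bool) : ℝ := if x ∈ P then 1 else 0

lemma indP_bool (x : Edge n r → Bool) : indP P x = 0 ∨ indP P x = 1 := by
  unfold indP
  split_ifs <;> simp

/-- `P` is invariant under vertex permutations -/
def IsInv : Prop := ∀ (π : Equiv.Perm (Fin n)) x, x ∈ P → actX (edgePerm π) x ∈ P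

/-- `P` is an increasing property -/
def IsInc : Prop := ∀ x y : Edge n r → Bool, (∀ e, x e = true → y e = true) → x ∈ P → y ∈ P

variable {P}

lemma indP_inv (h : IsInv P) (π : Equiv.Perm (Fin n)) (x : Edge n r → Bool) :
    indP P (actX (edgePerm π) x) = indP P x := by
  have h2 : actX (edgePerm π) x ∈ P ↔ x ∈ P := by
    refine ⟨fun hx => ?_, h π x⟩
    have := h π.symm _ hx
    have e : actX (edgePerm π.symm) (actX (edgePerm π) x) = x := by
      ext e
      simp only [actX]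
      congr 1
      exact (edgePerm π).right_inv e
    rwa [e] at this
  unfold indP
  by_cases hx : x ∈ P
  · rw [if_pos hx, if_pos (h2.mpr hx)]
  · rw [if_neg hx, if_neg (mt h2.mp hx)]

lemma Dd_indP (h : IsInc P) (e : Edge n r) (x : Edge n r → Bool) :
    Dd e (indP P) x = 0 ∨ Dd e (indP P) x = 1 := by
  unfold Dd indP
  have hmono : Function.update x e false ∈ P → Function.update x e true ∈ P := by
    apply h
    intro e' he'
    by_cases hee : e' = e
    · subst hee; simp
    · rw [Function.update_of_ne hee] at he' ⊢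
      exact he'
  by_cases h1 : Function.update x e false ∈ P
  · simp [h1, hmono h1]
  · by_cases h2 : Function.update x e true ∈ P
    · simp [h1, h2]
    · simp [h1, h2]

lemma EE_Dd_sq (h : IsInc P) (p : ℝ) (e : Edge n r) :
    EE p (fun z => Dd e (indP P) z ^ 2) = EE p (Dd e (indP P)) := by
  unfold EE
  refine Finset.sum_congr rfl (fun x _ => ?_)
  rcases Dd_indP h e x with h2 | h2 <;> simp [h2]

lemma EE_Dd_nonneg (h : IsInc P) {p : ℝ} (h0 : 0 ≤ p) (h1 : p ≤ 1) (e : Edge n r) :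
    0 ≤ EE p (Dd e (indP P)) := by
  apply EE_nonneg h0 h1
  intro x
  rcases Dd_indP h e x with h2 | h2 <;> simp [h2]

/-- the derivative of the measure -/
noncomputable def III (P : Set (Edge n r → Bool)) (p : ℝ) : ℝ := ∑ e, EE p (Dd e (indP P))

lemma JJ_indP (h : IsInc P) {p : ℝ} (h0 : 0 < p) (h1 : p < 1) :
    JJ p (indP P) = p * (1 - p) * III P p := by
  rw [JJ_eq h0 h1]
  simp only [EE_Dd_sq h]
  rfl

lemma VV_indP {p : ℝ} (h0 : 0 < p) (h1 : p < 1) :
    VV p (indP P) = EE p (indP P) * (1 - EE p (indP P)) := by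
  have e1 := parseval h0 h1 (indP P)
  have e2 : ∑ T, coeff p (indP P) T ^ 2
      = coeff p (indP P) ∅ ^ 2
        + ∑ T ∈ (univ : Finset (Finset (Edge n r))).erase ∅, coeff p (indP P) T ^ 2 :=
    (Finset.add_sum_erase _ _ (Finset.mem_univ _)).symm
  rw [coeff_empty] at e2
  have e3 : (fun z => indP P z ^ 2) = indP P := by
    ext z
    rcases indP_bool P z with h2 | h2 <;> simp [h2]
  rw [e3] at e1
  unfold VV
  nlinarith

lemma mu_zero (hinc : IsInc P) (hne : P ≠ Set.univ) : EE 0 (indP P) = 0 := by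
  unfold EE
  refine Finset.sum_eq_zero (fun x _ => ?_)
  by_cases hx : x ∈ P
  · have : ∃ e, x e = true := by
      by_contra hc
      push Not at hc
      apply hne
      ext y
      simp only [Set.mem_univ, iff_true]
      exact hinc x y (fun e he => absurd he (hc e)) hx
    obtain ⟨e, he⟩ := this
    have : wt 0 x = 0 := by
      apply Finset.prod_eq_zero (Finset.mem_univ e)
      simp [he]
    rw [this, zero_mul]
  · simp [indP, hx]

lemma mu_one (hinc : IsInc P) (hne : P.Nonempty) : EE 1 (indP P) = 1 := by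
  obtain ⟨x0, hx0⟩ := hne
  have htop : (fun _ => true : Edge n r → Bool) ∈ P := hinc x0 _ (fun _ _ => rfl) hx0
  unfold EE
  rw [Finset.sum_eq_single (fun _ => true : Edge n r → Bool)]
  · simp [wt, indP, htop]
  · intro x _ hx
    have : ∃ e, x e = false := by
      by_contra hc
      push Not at hc
      apply hx
      ext e
      simpa using hc e
    obtain ⟨e, he⟩ := this
    have : wt 1 x = 0 := by
      apply Finset.prod_eq_zero (Finset.mem_univ e)
      simp [he]
    rw [this, zero_mul]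
  · intro h
    exact absurd (Finset.mem_univ _) h

lemma mu_mono (hinc : IsInc P) : MonotoneOn (fun t => EE t (indP P)) (Set.Icc (0 : ℝ) 1) := by
  apply monotoneOn_of_deriv_nonneg (convex_Icc 0 1) (continuous_EE _).continuousOn
  · rw [interior_Icc]
    intro p hp
    exact (hasDeriv_EE hp.1 hp.2 (indP P)).differentiableAt.differentiableWithinAt
  · rw [interior_Icc]
    intro p hp
    rw [(hasDeriv_EE hp.1 hp.2 (indP P)).deriv]
    exact Finset.sum_nonneg (fun e _ => EE_Dd_nonneg hinc hp.1.le hp.2.le e)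

/-- The key estimate on the transition window. -/
theorem key_estimate (hinv : IsInv P) (hinc : IsInc P) (hr : 2 ≤ r) (hn : r ≤ n) {ε p : ℝ}
    (h0 : 0 < p) (h1 : p < 1) (hμ1 : ε ≤ EE p (indP P)) (hμ2 : EE p (indP P) ≤ 1 - ε)
    (hε0 : 0 < ε) (hε1 : ε < 1 / 2) :
    ε / 2 ≤ III P p * ((65536 * (r : ℝ) ^ 2 + 64 * r)
        * Real.log n ^ (-((r : ℝ) / ((r : ℝ) - 1)))) := by
  have hn2 : (2 : ℝ) ≤ n := by exact_mod_cast hr.trans hn
  have hrR : (2 : ℝ) ≤ r := by exact_mod_cast hr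
  have hn0 : 0 < n := by omega
  have hr1 : 1 ≤ r := by omega
  set ℓ := Real.log n with hℓ
  have hℓpos : 0 < ℓ := Real.log_pos (by linarith)
  set N4 := Real.sqrt (Real.sqrt n) with hN4
  have hs0 : 0 < Real.sqrt (n : ℝ) := Real.sqrt_pos.mpr (by linarith)
  have hN4pos : 0 < N4 := Real.sqrt_pos.mpr hs0
  have hN4sq : N4 ^ 2 = Real.sqrt n := Real.sq_sqrt hs0.le
  set c := lsiC p with hc
  have hcpos : 0 < c := lsiC_pos h0 h1
  set X := ℓ / (4 * c * r) with hX
  have hXpos : 0 < X := by positivity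
  obtain ⟨m, hm⟩ : ∃ m, r = m + 1 := ⟨r - 1, by omega⟩
  have hm0 : m ≠ 0 := by omega
  have hmR : (m : ℝ) = (r : ℝ) - 1 := by
    rw [hm]; push_cast; ring
  obtain ⟨L, hL, hLm, hLr⟩ := power_choice hXpos hm0
  have hα : ((m : ℝ) + 1) / m = (r : ℝ) / ((r : ℝ) - 1) := by
    rw [hmR]
    congr 1
    ring
  rw [hα] at hLr
  set α := (r : ℝ) / ((r : ℝ) - 1) with hαdef
  have hα1 : 0 ≤ α := by
    apply div_nonneg <;> linarith
  have hα2 : α ≤ 2 := by
    rw [hαdef, div_le_iff₀ (by linarith)]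
    linarith
  have hLam : (1 : ℝ) ≤ Real.sqrt n := Real.one_le_sqrt.mpr (by linarith)
  have hmain := main_ineq h0 h1 hr1 hn0 (indP P) (indP_inv hinv) (indP_bool P) hLam hL
  rw [Real.log_sqrt (by linarith), ← hN4sq] at hmain
  have hr' : r - 1 = m := by omega
  rw [hr', hLm] at hmain
  have hJ := JJ_nonneg p (indP P)
  have hchoice : c * (r : ℝ) * X = ℓ / 4 := by
    rw [hX]
    field_simp
  have hN4sq' : Real.sqrt (N4 ^ 2) = N4 := Real.sqrt_sq hN4pos.le
  rw [hN4sq'] at hmain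
  have hfm := from_main (V := VV p (indP P)) (J := JJ p (indP P)) (ℓ := ℓ) (c := c) (rr := (r : ℝ))
    (L := L) (Lm := X) (N4 := N4) hJ hℓpos hcpos (by linarith) hL hXpos hN4pos hchoice hmain
  have hrw : 1 / (X * L) = X ^ (-α) := by
    have := hLr
    rw [hLm] at this
    exact this
  rw [hrw, JJ_indP hinc h0 h1, VV_indP h0 h1] at hfm
  have hIII : 0 ≤ III P p := Finset.sum_nonneg (fun e _ => EE_Dd_nonneg hinc h0.le h1.le e)
  have hlogle : ℓ ^ α ≤ 64 * N4 := log_rpow_le (by linarith) hℓpos hα1 hα2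
  have hnum := numeric_final h0 h1 hr hℓpos hN4pos hα2 hlogle
  have hmul := mul_le_mul_of_nonneg_left hnum hIII
  have hV : ε / 2 ≤ EE p (indP P) * (1 - EE p (indP P)) := by
    nlinarith
  refine hV.trans (hfm.trans ?_)
  refine le_trans (le_of_eq ?_) hmul
  ring

end Property

/-- threshold of a property -/
noncomputable def thr {n r : ℕ} (P : Set (Edge n r → Bool)) (a : ℝ) : ℝ :=
  sInf {p : ℝ | p ∈ Set.Icc (0 : ℝ) 1 ∧ a ≤ EE p (indP P)}

/-- The width bound. -/
theorem width_bound {r : ℕ} (hr : 2 ≤ r) {ε : ℝ} (hε0 : 0 < ε) (hε1 : ε < 1 / 2) :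
    ∀ n : ℕ, r ≤ n → ∀ P : Set (Edge n r → Bool), IsInv P → IsInc P → P.Nonempty → P ≠ Set.univ →
      thr P (1 - ε) - thr P ε
        ≤ (2 / ε * (65536 * (r : ℝ) ^ 2 + 64 * r))
            * Real.log n ^ (-((r : ℝ) / ((r : ℝ) - 1))) := by
  intro n hn P hinv hinc hne huniv
  have hn2 : (2 : ℝ) ≤ n := by exact_mod_cast hr.trans hn
  have hℓpos : 0 < Real.log n := Real.log_pos (by linarith)
  have hrR : (2 : ℝ) ≤ r := by exact_mod_cast hr
  set μ : ℝ → ℝ := fun t => EE t (indP P) with hμ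
  have hcont : Continuous μ := continuous_EE _
  have hμ0 : μ 0 = 0 := mu_zero hinc huniv
  have hμ1 : μ 1 = 1 := mu_one hinc hne
  obtain ⟨ha1, ha2⟩ := thr_spec hcont hμ0 hμ1 hε0 (by linarith : ε < 1)
  obtain ⟨hb1, hb2⟩ := thr_spec hcont hμ0 hμ1 (by linarith : 0 < 1 - ε) (by linarith : 1 - ε < 1)
  have hthr : ∀ a, thr P a = sInf {p : ℝ | p ∈ Set.Icc (0 : ℝ) 1 ∧ a ≤ μ p} := fun _ => rfl
  rw [hthr, hthr]
  set a := sInf {p : ℝ | p ∈ Set.Icc (0 : ℝ) 1 ∧ ε ≤ μ p} with ha
  set b := sInf {p : ℝ | p ∈ Set.Icc (0 : ℝ) 1 ∧ 1 - ε ≤ μ p} with hb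
  have hpow : 0 < Real.log n ^ (-((r : ℝ) / ((r : ℝ) - 1))) := Real.rpow_pos_of_pos hℓpos _
  have hK : 0 < 2 / ε * (65536 * (r : ℝ) ^ 2 + 64 * r) := by positivity
  by_cases hab : a < b
  · -- the mean value theorem
    obtain ⟨c, hc, hc2⟩ := exists_hasDerivAt_eq_slope μ (III P) hab hcont.continuousOn
      (fun x hx => hasDeriv_EE (by linarith [ha1.1, hx.1]) (by linarith [hb1.2, hx.2]) (indP P))
    have hc0 : 0 < c := by linarith [ha1.1, hc.1]
    have hc1 : c < 1 := by linarith [hb1.2, hc.2]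
    have hmono := mu_mono hinc (P := P)
    have hlow : ε ≤ μ c := by
      rw [← ha2]
      exact hmono ha1 ⟨hc0.le, hc1.le⟩ hc.1.le
    have hup : μ c ≤ 1 - ε := by
      rw [← hb2]
      exact hmono ⟨hc0.le, hc1.le⟩ hb1 hc.2.le
    have hkey := key_estimate hinv hinc hr hn hc0 hc1 hlow hup hε0 hε1
    rw [hc2, ha2, hb2] at hkey
    have hba : 0 < b - a := by linarith
    set Y := (65536 * (r : ℝ) ^ 2 + 64 * r) * Real.log n ^ (-((r : ℝ) / ((r : ℝ) - 1))) with hY
    have hYpos : 0 < Y := by positivity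
    have h2 : ε / 2 * (b - a) ≤ (1 - ε - ε) * Y := by
      have e : (1 - ε - ε) / (b - a) * Y * (b - a) = (1 - ε - ε) * Y := by
        field_simp
      have := mul_le_mul_of_nonneg_right hkey hba.le
      rw [e] at this
      exact this
    have h3 : b - a ≤ 2 / ε * Y := by
      have h4 : (1 - ε - ε) * Y ≤ Y := by nlinarith
      have h5 : ε / 2 * (b - a) ≤ Y := h2.trans h4
      rw [div_mul_eq_mul_div, le_div_iff₀ hε0]
      linarith
    calc b - a ≤ 2 / ε * Y := h3
      _ = _ := by rw [hY]; ring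
  · push Not at hab
    have : b - a ≤ 0 := by linarith
    exact this.trans (by positivity)

end Vale.Agent.Lib.P063
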